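import Vale.Agent.Lib.PolyTime.Lists2
import Vale.Agent.Lib.PolyTime.Lists3
import Vale.Agent.Lib.PolyTime.NatArith2

/-!
Automation for the typed polynomial time layer: after importing this file `fun_prop` proves goals
of the form `PT ∅ (fun a => ...)` for expressions built from arithmetic, `decide`, `if`, pairs,
lists (`map`, `filter`, `range`, `getD`, `zip`, `sum`, ...), options (`Option.elim`), minima, and
the clamped recursions `iterC`, `foldlC`, `natRecC` defined here.
-/

namespace Vale.Agent.P315.H155

open Vale.Agent.Lib.PolyTime Function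

variable {A : Set Word} {α β γ δ : Type*} [Enc α] [Enc β] [Enc γ] [Enc δ]

attribute [fun_prop] PT.map PT.getD PT.sum PT.prod PT.take PT.drop PT.filter PT.lt PT.le PT.eqNat
  PT.decide_and PT.decide_or PT.decide_not PT.range PT.zip PT.any PT.all PT.flatMap PT.replicate
  PT.ite PT.cond PT.getElem? PT.getLast? PT.dropLast PT.find? PT.mkUn PT.size PT.pow PT.takeWhile
  PT.dropWhile PT.mem

/-! ### Polynomial bounds (no oracle, so that the set of oracle words is determined) -/

@[fun_prop]
theorem PBd_length {f : α → List β} (hf : PT ∅ f) : PBd (fun a => (f a).length) := PBd.length hf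

@[fun_prop]
theorem PBd_unVal {f : α → Un} (hf : PT ∅ f) : PBd (fun a => (f a).v) := PBd.unVal hf

@[fun_prop]
theorem PBd_esize {f : α → β} (hf : PT ∅ f) : PBd (fun a => esize (f a)) := hf.pbd

@[fun_prop]
theorem PBd_sub {f g : α → ℕ} (hf : PBd f) : PBd (fun a => f a - g a) :=
  hf.mono fun _ => Nat.sub_le _ _

@[fun_prop]
theorem PBd_div {f g : α → ℕ} (hf : PBd f) : PBd (fun a => f a / g a) :=
  hf.mono fun _ => Nat.div_le_self _ _

@[fun_prop]
theorem PBd_mod {f g : α → ℕ} (hf : PBd f) : PBd (fun a => f a % g a) :=
  hf.mono fun _ => Nat.mod_le _ _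

@[fun_prop]
theorem PBd_max {f g : α → ℕ} (hf : PBd f) (hg : PBd g) : PBd (fun a => max (f a) (g a)) :=
  (hf.add hg).mono fun a => by omega

theorem PBd_min_left {f g : α → ℕ} (hf : PBd f) : PBd (fun a => min (f a) (g a)) :=
  hf.mono fun _ => min_le_left _ _

theorem PBd_min_right {f g : α → ℕ} (hg : PBd g) : PBd (fun a => min (f a) (g a)) :=
  hg.mono fun _ => min_le_right _ _

@[fun_prop]
theorem PBd_comp {b : β → ℕ} {f : α → β} (hb : PBd b) (hf : PT ∅ f) : PBd (fun a => b (f a)) :=
  hb.comp hf

/-! ### Options -/

@[fun_prop]
theorem PT_optElim {o : α → Option β} {f : α → γ} {g : α → β → γ} (ho : PT A o)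
    (hf : PT A f) (hg : PT A (fun p : α × β => g p.1 p.2)) :
    PT A (fun a => (o a).elim (f a) (g a)) :=
  (PT.optCase ho hf hg).congr fun a => by cases o a <;> rfl

@[fun_prop]
theorem PT_optMap {o : α → Option β} {g : α → β → γ} (ho : PT A o)
    (hg : PT A (fun p : α × β => g p.1 p.2)) : PT A (fun a => (o a).map (g a)) :=
  (PT.optCase ho (PT.const none) (g := fun a b => some (g a b)) (PT.some hg)).congr fun a => by
    cases o a <;> rfl

@[fun_prop]
theorem PT_optBind {o : α → Option β} {g : α → β → Option γ} (ho : PT A o)
    (hg : PT A (fun p : α × β => g p.1 p.2)) : PT A (fun a => (o a).bind (g a)) :=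
  (PT.optCase ho (PT.const none) hg).congr fun a => by cases o a <;> rfl

@[fun_prop]
theorem PT_isNone {o : α → Option β} (ho : PT A o) : PT A (fun a => (o a).isNone) :=
  (ho.isSome.not).congr fun a => by cases o a <;> rfl

/-- The first `some` in a list of options. -/
def firstSome {β : Type*} (l : List (Option β)) : Option β := (l.find? (fun o => o.isSome)).bind id

@[fun_prop]
theorem PT_firstSome {l : α → List (Option β)} (hl : PT A l) : PT A (fun a => firstSome (l a)) := by
  unfold firstSome
  have h : PT A (fun p : α × Option β => id p.2) := PT.snd'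
  exact PT_optBind (PT.find? hl (f := fun _ o => o.isSome) (PT.isSome PT.snd')) h

theorem firstSome_nil {β : Type*} : firstSome ([] : List (Option β)) = none := rfl

theorem firstSome_none_cons {β : Type*} (l : List (Option β)) :
    firstSome (none :: l) = firstSome l := rfl

theorem firstSome_some_cons {β : Type*} (b : β) (l : List (Option β)) :
    firstSome (some b :: l) = some b := rfl

theorem firstSome_eq_none {β : Type*} {l : List (Option β)} :
    firstSome l = none ↔ ∀ o ∈ l, o = none := by
  induction l with
  | nil => simp [firstSome_nil]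
  | cons o l ih => cases o with
    | none => simp [firstSome_none_cons, ih]
    | some b => simp [firstSome_some_cons]

theorem firstSome_mem {β : Type*} {l : List (Option β)} {b : β} (h : firstSome l = some b) :
    some b ∈ l := by
  induction l with
  | nil => simp [firstSome_nil] at h
  | cons o l ih => cases o with
    | none => exact List.mem_cons_of_mem _ (ih h)
    | some c =>
      rw [firstSome_some_cons] at h
      rw [h]; exact List.mem_cons_self

/-! ### Equality tests -/

theorem PT_decEqPair {β γ : Type*} [Enc β] [Enc γ] [DecidableEq β] [DecidableEq γ]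
    (h1 : PT A (fun p : β × β => decide (p.1 = p.2)))
    (h2 : PT A (fun p : γ × γ => decide (p.1 = p.2))) :
    PT A (fun p : (β × γ) × (β × γ) => decide (p.1 = p.2)) := by
  refine (PT.and (h1.comp (PT.pair PT.fst'.fst PT.snd'.fst))
    (h2.comp (PT.pair PT.fst'.snd PT.snd'.snd))).congr fun p => ?_
  rcases p with ⟨⟨a, b⟩, c, d⟩
  rw [Bool.eq_iff_iff]
  simp

/-! ### Clamped recursions -/

/-- Iteration that stops changing its state when the state would become larger than `B`. -/
def iterC {β : Type*} [Enc β] (B k : ℕ) (step : β → β) (s : β) : β :=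
  (fun s => if esize (step s) ≤ B then step s else s)^[k] s

theorem iterC_eq {B k : ℕ} {step : β → β} {s : β} (h : ∀ j < k, esize (step^[j + 1] s) ≤ B) :
    iterC B k step s = step^[k] s := by
  unfold iterC
  induction k with
  | zero => rfl
  | succ k ih =>
    rw [iterate_succ_apply', ih fun j hj => h j (by omega), iterate_succ_apply']
    have := h k (Nat.lt_succ_self k)
    rw [iterate_succ_apply'] at this
    simp [this]

theorem esize_iterC_le {B k : ℕ} {step : β → β} {s : β} :
    esize (iterC B k step s) ≤ esize s + B := by
  unfold iterC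
  induction k with
  | zero => simp
  | succ k ih =>
    rw [iterate_succ_apply']
    split_ifs with h
    · exact h.trans (Nat.le_add_left _ _)
    · exact ih

@[fun_prop]
theorem PT_iterC {B k : α → ℕ} {step : α → β → β} {init : α → β} (hB : PT A B) (hBb : PBd B)
    (hk : PT A k) (hkb : PBd k) (hs : PT A (fun p : α × β => step p.1 p.2)) (hi : PT A init) :
    PT A (fun a => iterC (B a) (k a) (step a) (init a)) := by
  unfold iterC
  refine PT.iterate' (step := fun a s => if esize (step a s) ≤ B a then step a s else s) hk hkb hi
    (PT.ite (PT.le (PT.size hs) (hB.comp PT.fst')) hs PT.snd') (b := fun a => esize (init a) + B a)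
    (hi.pbd.add hBb) fun a j _ => ?_
  exact esize_iterC_le (k := j)

/-- Primitive recursion that stops changing its state when the state would become larger than
`B`. -/
def natRecC {β : Type*} [Enc β] (B k : ℕ) (step : ℕ → β → β) (s : β) : β :=
  Nat.rec (motive := fun _ => β) s (fun i t => if esize (step i t) ≤ B then step i t else t) k

theorem natRecC_zero {B : ℕ} {step : ℕ → β → β} {s : β} : natRecC B 0 step s = s := rfl

theorem natRecC_succ {B k : ℕ} {step : ℕ → β → β} {s : β} :
    natRecC B (k + 1) step s =
      if esize (step k (natRecC B k step s)) ≤ B then step k (natRecC B k step s)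
      else natRecC B k step s := rfl

theorem esize_natRecC_le {B k : ℕ} {step : ℕ → β → β} {s : β} :
    esize (natRecC B k step s) ≤ esize s + B := by
  induction k with
  | zero => simp [natRecC_zero]
  | succ k ih =>
    rw [natRecC_succ]
    split_ifs with h
    · exact h.trans (Nat.le_add_left _ _)
    · exact ih

theorem natRecC_eq {B k : ℕ} {step : ℕ → β → β} {s : β}
    (h : ∀ j < k, esize (Nat.rec (motive := fun _ => β) s step (j + 1)) ≤ B) :
    natRecC B k step s = Nat.rec (motive := fun _ => β) s step k := by
  induction k with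
  | zero => rfl
  | succ k ih =>
    rw [natRecC_succ, ih fun j hj => h j (by omega), if_pos]
    exact h k (Nat.lt_succ_self k)

@[fun_prop]
theorem PT_natRecC {B k : α → ℕ} {step : α → ℕ → β → β} {init : α → β} (hB : PT A B) (hBb : PBd B)
    (hk : PT A k) (hkb : PBd k) (hs : PT A (fun p : α × ℕ × β => step p.1 p.2.1 p.2.2))
    (hi : PT A init) : PT A (fun a => natRecC (B a) (k a) (step a) (init a)) := by
  unfold natRecC
  refine PT.natRec (step := fun a i s => if esize (step a i s) ≤ B a then step a i s else s) hk hkb
    hi (PT.ite (PT.le (PT.size hs) (hB.comp PT.fst')) hs PT.snd'.snd)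
    (b := fun a => esize (init a) + B a) (hi.pbd.add hBb) fun a j _ => ?_
  exact esize_natRecC_le (k := j)

/-- Fold that stops changing its state when the state would become larger than `B`. -/
def foldlC {β γ : Type*} [Enc β] (B : ℕ) (f : β → γ → β) (s : β) (l : List γ) : β :=
  l.foldl (fun s x => if esize (f s x) ≤ B then f s x else s) s

omit [Enc γ] in
theorem esize_foldlC_le {B : ℕ} {f : β → γ → β} {s : β} {l : List γ} :
    esize (foldlC B f s l) ≤ esize s + B := by
  unfold foldlC
  induction l using List.reverseRecOn with
  | nil => simp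
  | append_singleton l x ih =>
    rw [List.foldl_append]
    simp only [List.foldl_cons, List.foldl_nil]
    split_ifs with h
    · exact h.trans (Nat.le_add_left _ _)
    · exact ih

omit [Enc γ] in
theorem foldlC_eq {B : ℕ} {f : β → γ → β} {s : β} {l : List γ}
    (h : ∀ i < l.length, esize ((l.take (i + 1)).foldl f s) ≤ B) :
    foldlC B f s l = l.foldl f s := by
  induction l using List.reverseRecOn with
  | nil => rfl
  | append_singleton l x ih =>
    have h1 : foldlC B f s l = l.foldl f s := ih fun i hi => by
      have := h i (by rw [List.length_append]; omega)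
      rwa [List.take_append_of_le_length (by omega)] at this
    unfold foldlC at h1 ⊢
    rw [List.foldl_append, List.foldl_append, h1]
    simp only [List.foldl_cons, List.foldl_nil]
    have h2 := h l.length (by simp)
    rw [List.take_of_length_le (by simp), List.foldl_append] at h2
    simp only [List.foldl_cons, List.foldl_nil] at h2
    rw [if_pos h2]

@[fun_prop]
theorem PT_foldlC {B : α → ℕ} {f : α → β → γ → β} {init : α → β} {l : α → List γ} (hB : PT A B)
    (hBb : PBd B) (hf : PT A (fun p : α × β × γ => f p.1 p.2.1 p.2.2)) (hi : PT A init)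
    (hl : PT A l) : PT A (fun a => foldlC (B a) (f a) (init a) (l a)) := by
  unfold foldlC
  refine PT.foldl (f := fun a s x => if esize (f a s x) ≤ B a then f a s x else s) hl hi
    (PT.ite (PT.le (PT.size hf) (hB.comp PT.fst')) hf PT.snd'.fst)
    (b := fun a => esize (init a) + B a) (hi.pbd.add hBb) fun a i => ?_
  exact esize_foldlC_le

/-! ### Minima -/

/-- Minimum of a list of numbers and a default value. -/
def minD (l : List ℕ) (d : ℕ) : ℕ := l.foldl min d

theorem minD_le_default (l : List ℕ) (d : ℕ) : minD l d ≤ d := by
  unfold minD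
  induction l using List.reverseRecOn with
  | nil => exact le_rfl
  | append_singleton l x ih =>
    rw [List.foldl_append]
    exact (min_le_left _ _).trans ih

theorem minD_le_of_mem {l : List ℕ} {d x : ℕ} (h : x ∈ l) : minD l d ≤ x := by
  unfold minD
  induction l using List.reverseRecOn with
  | nil => simp at h
  | append_singleton l y ih =>
    rw [List.foldl_append]
    simp only [List.foldl_cons, List.foldl_nil]
    rcases List.mem_append.1 h with h | h
    · exact (min_le_left _ _).trans (ih h)
    · rw [List.mem_singleton.1 h]; exact min_le_right _ _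

theorem le_minD {l : List ℕ} {d c : ℕ} (hd : c ≤ d) (h : ∀ x ∈ l, c ≤ x) : c ≤ minD l d := by
  unfold minD
  induction l using List.reverseRecOn with
  | nil => exact hd
  | append_singleton l y ih =>
    rw [List.foldl_append]
    simp only [List.foldl_cons, List.foldl_nil]
    exact le_min (ih fun x hx => h x (List.mem_append_left _ hx)) (h y (by simp))

theorem minD_mem (l : List ℕ) (d : ℕ) : minD l d = d ∨ minD l d ∈ l := by
  unfold minD
  induction l using List.reverseRecOn with
  | nil => exact Or.inl rfl
  | append_singleton l y ih =>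
    rw [List.foldl_append]
    simp only [List.foldl_cons, List.foldl_nil, List.mem_append, List.mem_singleton]
    rcases min_choice (l.foldl min d) y with h | h
    · rw [h]
      rcases ih with h' | h'
      · exact Or.inl h'
      · exact Or.inr (Or.inl h')
    · rw [h]; exact Or.inr (Or.inr rfl)

@[fun_prop]
theorem PT_minD {l : α → List ℕ} {d : α → ℕ} (hl : PT A l) (hd : PT A d) :
    PT A (fun a => minD (l a) (d a)) := by
  refine PT.foldl (f := fun _ s x => min s x) hl hd (PT.min PT.snd'.fst PT.snd'.snd) hd.pbd
    fun a i => esize_nat_mono (minD_le_default _ _)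

/-- The first position of the minimum of `f` on `0, …, n - 1` (`0` if `n = 0`). -/
def argminN (n : ℕ) (f : ℕ → ℕ) : ℕ :=
  ((List.range n).find? (fun i => (List.range n).all fun j => decide (f i ≤ f j))).getD 0

theorem argminN_lt {n : ℕ} (hn : 0 < n) (f : ℕ → ℕ) : argminN n f < n := by
  unfold argminN
  rcases h : (List.range n).find? (fun i => (List.range n).all fun j => decide (f i ≤ f j)) with
    _ | i
  · simpa using hn
  · have := List.mem_of_find?_eq_some h
    simpa using this

theorem argminN_le {n : ℕ} (f : ℕ → ℕ) {j : ℕ} (hj : j < n) : f (argminN n f) ≤ f j := by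
  have hex : ∃ i ∈ List.range n, ((List.range n).all fun j => decide (f i ≤ f j)) = true := by
    obtain ⟨i, hi, hmin⟩ := Finset.exists_min_image (Finset.range n) f ⟨j, Finset.mem_range.2 hj⟩
    refine ⟨i, List.mem_range.2 (Finset.mem_range.1 hi), ?_⟩
    rw [List.all_eq_true]
    intro x hx
    exact decide_eq_true (hmin x (Finset.mem_range.2 (List.mem_range.1 hx)))
  have hs : ((List.range n).find?
      (fun i => (List.range n).all fun j => decide (f i ≤ f j))).isSome := by
    rw [List.find?_isSome]
    exact hex
  obtain ⟨i, hi⟩ := Option.isSome_iff_exists.1 hs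
  have h1 := List.find?_some hi
  rw [List.all_eq_true] at h1
  have h2 := h1 j (List.mem_range.2 hj)
  unfold argminN
  rw [hi]
  simpa using h2

@[fun_prop]
theorem PT_argminN {n : α → ℕ} {f : α → ℕ → ℕ} (hn : PT A n) (hnb : PBd n)
    (hf : PT A (fun p : α × ℕ => f p.1 p.2)) : PT A (fun a => argminN (n a) (f a)) := by
  unfold argminN
  refine PT.optGetD (PT.find? (PT.range hn hnb)
    (f := fun a i => (List.range (n a)).all fun j => decide (f a i ≤ f a j)) ?_) (PT.const 0)
  refine PT.all (l := fun p : α × ℕ => List.range (n p.1))
    (f := fun p j => decide (f p.1 p.2 ≤ f p.1 j))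
    (PT.range (hn.comp PT.fst') (hnb.comp (A := A) PT.fst')) ?_
  exact PT.le (hf.comp (PT.pair PT.fst'.fst PT.fst'.snd))
    (hf.comp (PT.pair PT.fst'.fst PT.snd'))

end Vale.Agent.P315.H155
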