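import Vale.Agent.P315.H123.BoxArea

/-! Area of the read sets with density classes (P315, PROOF.md part F.4).

Levels `0, 1, …`; slab `t` of level `j`; the cell `(k, q)` of a slab of level `j` has class `q`
and covers the positions `[k w, (k+1) w)`, `w = wd M j q = 2 ^ q M ^ j`. The children of
`(j+1, t, k, q)` are the cells `(k', q')` of all classes `q' < Qn` of the slabs `M t + i` which
meet `[(k-1) w, (k+2) w]`; they are read at the index `b - ξ - D |q' - q|`. A unit of class `q'`
on a lane of height `h` is read at the index `b - Ξ - D x + h` with any delay `x ≥ |q' - q|`. -/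

set_option autoImplicit false

namespace Vale.Agent.P315.H155

open Finset Q976 H123

/-- Distance of two classes. -/
def cd (q q' : ℕ) : ℕ := (q - q') + (q' - q)

theorem cd_self (q : ℕ) : cd q q = 0 := by simp [cd]

theorem cd_triangle (a b c : ℕ) : cd a c ≤ cd a b + cd b c := by unfold cd; omega

/-- Width of the cells of class `q` of level `j`. -/
def wd (M j q : ℕ) : ℤ := 2 ^ q * (M : ℤ) ^ j

theorem wd_pos {M : ℕ} (hM : 0 < M) (j q : ℕ) : 0 < wd M j q := by
  unfold wd
  have : (0 : ℤ) < M := by exact_mod_cast hM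
  positivity

/-! ### Geometric sums over the classes -/

theorem geo_le {r : ℝ} (h0 : 0 ≤ r) (h1 : r < 1) (n : ℕ) : ∑ i ∈ range n, r ^ i ≤ 1 / (1 - r) := by
  rw [le_div_iff₀ (by linarith), geom_sum_mul_neg]
  have : 0 ≤ r ^ n := pow_nonneg h0 n
  linarith

theorem sum_geo {r s : ℝ} (hr0 : 0 ≤ r) (hr : r < 1) (hs0 : 0 ≤ s) (hs : s < 1) (q n : ℕ) :
    ∑ q' ∈ range n, r ^ (q' - q) * s ^ (q - q') ≤ 1 / (1 - r) + s * (1 / (1 - s)) := by
  have h1 : ∑ q' ∈ range n, r ^ (q' - q) * s ^ (q - q') ≤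
      ∑ q' ∈ range (q + n), r ^ (q' - q) * s ^ (q - q') := by
    refine Finset.sum_le_sum_of_subset_of_nonneg ?_ fun i _ _ => by positivity
    intro i hi
    rw [Finset.mem_range] at hi ⊢
    omega
  refine h1.trans ?_
  rw [Finset.sum_range_add, add_comm]
  refine add_le_add ?_ ?_
  · refine le_trans (le_of_eq ?_) (geo_le hr0 hr n)
    refine Finset.sum_congr rfl fun i _ => ?_
    rw [show q + i - q = i by omega, show q - (q + i) = 0 by omega, pow_zero, mul_one]
  · have h2 : ∑ q' ∈ range q, r ^ (q' - q) * s ^ (q - q') = ∑ i ∈ range q, s * s ^ i := by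
      rw [← Finset.sum_range_reflect]
      refine Finset.sum_congr rfl fun i hi => ?_
      have := Finset.mem_range.1 hi
      rw [show q - 1 - i - q = 0 by omega, show q - (q - 1 - i) = i + 1 by omega, pow_zero,
        one_mul, pow_succ]
      ring
    rw [h2, ← Finset.mul_sum]
    exact mul_le_mul_of_nonneg_left (geo_le hs0 hs q) hs0

theorem sum_cd (q n : ℕ) : ∑ q' ∈ range n, ((1 : ℝ) / 4) ^ cd q' q ≤ 5 / 3 := by
  have h := sum_geo (r := 1 / 4) (s := 1 / 4) (by norm_num) (by norm_num) (by norm_num)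
    (by norm_num) q n
  refine le_trans (le_of_eq ?_) (h.trans (by norm_num))
  refine Finset.sum_congr rfl fun q' _ => ?_
  rw [cd, pow_add]

theorem two_pow_cd (q q' : ℕ) :
    (2 : ℝ) ^ q' * ((1 : ℝ) / 4) ^ cd q' q =
      2 ^ q * (((1 : ℝ) / 2) ^ (q' - q) * ((1 : ℝ) / 8) ^ (q - q')) := by
  rcases le_total q q' with h | h
  · obtain ⟨d, rfl⟩ := Nat.exists_eq_add_of_le h
    rw [cd, show q + d - q = d by omega, show q - (q + d) = 0 by omega, add_zero, pow_zero,
      mul_one, pow_add, mul_assoc, ← mul_pow]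
    norm_num
  · obtain ⟨d, rfl⟩ := Nat.exists_eq_add_of_le h
    rw [cd, show q' + d - q' = d by omega, show q' - (q' + d) = 0 by omega, zero_add, pow_zero,
      one_mul, pow_add, mul_assoc, ← mul_pow]
    norm_num

theorem sum_two_pow_cd (q n : ℕ) :
    ∑ q' ∈ range n, (2 : ℝ) ^ q' * ((1 : ℝ) / 4) ^ cd q' q ≤ 15 / 7 * 2 ^ q := by
  have h := sum_geo (r := 1 / 2) (s := 1 / 8) (by norm_num) (by norm_num) (by norm_num)
    (by norm_num) q n
  rw [Finset.sum_congr rfl fun q' _ => two_pow_cd q q', ← Finset.mul_sum, mul_comm]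
  exact mul_le_mul_of_nonneg_right (h.trans (by norm_num)) (by positivity)

theorem exp_cd {lam D : ℝ} (hD : 4 ≤ Real.exp (lam * D)) (c : ℕ) :
    Real.exp (-(lam * (D * c))) ≤ ((1 : ℝ) / 4) ^ c := by
  have h1 : Real.exp (-(lam * (D * c))) = (Real.exp (-(lam * D))) ^ c := by
    rw [← Real.exp_nat_mul]; congr 1; ring
  rw [h1]
  refine pow_le_pow_left₀ (Real.exp_pos _).le ?_ c
  rw [Real.exp_neg, one_div]
  exact inv_anti₀ (by norm_num) hD

theorem card_Icc_div {w A B : ℤ} (hw : 0 < w) (hAB : A ≤ B) :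
    ((Icc (A / w) (B / w)).card : ℝ) ≤ ((B : ℝ) - A) / w + 2 := by
  have h1 : A / w ≤ B / w := Int.ediv_le_ediv hw hAB
  have h2 : (((Icc (A / w) (B / w)).card : ℤ) : ℝ) = (B / w : ℤ) + 1 - (A / w : ℤ) := by
    rw [Int.card_Icc, Int.toNat_of_nonneg (by omega)]
    push_cast
    ring
  have h3 : ((Icc (A / w) (B / w)).card : ℝ) = (B / w : ℤ) + 1 - (A / w : ℤ) := by
    rw [← h2]; push_cast; rfl
  rw [h3]
  have hw' : (0 : ℝ) < w := by exact_mod_cast hw
  have h4 : ((B / w : ℤ) : ℝ) * w ≤ B := by exact_mod_cast Int.ediv_mul_le B hw.ne'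
  have h5 : (A : ℝ) < (((A / w : ℤ) : ℝ) + 1) * w := by
    exact_mod_cast Int.lt_ediv_add_one_mul_self A hw
  rw [div_add' _ _ _ hw'.ne', le_div_iff₀ hw']
  nlinarith

/-- All cells of all classes which meet `[A, B]`, read at the index `b` seen from the class `q`. -/
noncomputable def Fam {γ : Type*} [DecidableEq γ] (S : ℕ → ℕ → ℤ → ℕ → ℤ → Finset γ) (M Qn D j t : ℕ)
    (A B : ℤ) (q : ℕ) (b : ℤ) : Finset γ :=
  (range Qn).biUnion fun q' => (Icc (A / wd M j q') (B / wd M j q')).biUnion fun k =>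
    S j t k q' (b - D * cd q' q)

theorem mem_Fam {γ : Type*} [DecidableEq γ] {S : ℕ → ℕ → ℤ → ℕ → ℤ → Finset γ}
    {M Qn D j t : ℕ} {A B : ℤ} {q : ℕ} {b : ℤ} {y : γ} :
    y ∈ Fam S M Qn D j t A B q b ↔ ∃ q' < Qn, ∃ k, A / wd M j q' ≤ k ∧ k ≤ B / wd M j q' ∧
      y ∈ S j t k q' (b - D * cd q' q) := by
  simp only [Fam, Finset.mem_biUnion, Finset.mem_range, Finset.mem_Icc]
  constructor
  · rintro ⟨q', h1, k, ⟨h2, h3⟩, h4⟩
    exact ⟨q', h1, k, h2, h3, h4⟩
  · rintro ⟨q', h1, k, h2, h3, h4⟩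
    exact ⟨q', h1, k, ⟨h2, h3⟩, h4⟩

theorem single_sub_Fam {γ : Type*} [DecidableEq γ] {S : ℕ → ℕ → ℤ → ℕ → ℤ → Finset γ}
    {M Qn D : ℕ} (hM : 0 < M) {j t : ℕ} {k : ℤ} {q : ℕ} (hq : q < Qn) {b : ℤ} :
    S j t k q b ⊆ Fam S M Qn D j t (k * wd M j q) (k * wd M j q) q b := by
  intro y hy
  rw [mem_Fam]
  refine ⟨q, hq, k, ?_, ?_, ?_⟩
  · rw [Int.mul_ediv_cancel _ (wd_pos hM j q).ne']
  · rw [Int.mul_ediv_cancel _ (wd_pos hM j q).ne']
  · rw [cd_self]; simpa using hy

/-- **Area of the read sets with density classes**, pathwise in the jitters. -/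
theorem class_area {γ : Type*} [DecidableEq γ] {M : ℕ} (hM : 20 ≤ M) {lam C : ℝ}
    (hlam : 0 ≤ lam) (hC : 1 ≤ C) {D : ℕ} (hD : 4 ≤ Real.exp (lam * D)) {Qn : ℕ}
    {ξ : ℕ → ℕ → ℕ} {S : ℕ → ℕ → ℤ → ℕ → ℤ → Finset γ}
    {sc : ℕ → Finset ℕ} (hsc : ∀ j, ∀ h ∈ sc j, 1 ≤ h ∧ h ≤ j) {Lam : ℕ → ℕ}
    (hmono : ∀ j t k q b b', b ≤ b' → S j t k q b ⊆ S j t k q b')
    (h0 : ∀ t k q b, (S 0 t k q b).card ≤ 1) (h0' : ∀ t k q b, b < 0 → S 0 t k q b = ∅)
    (hs : ∀ j t k q b, ∃ (lk : ℕ → ℕ → ℕ → ℤ) (lq lx : ℕ → ℕ → ℕ → ℕ),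
      (∀ h l u, lq h l u < Qn ∧ cd (lq h l u) q ≤ lx h l u) ∧
      S (j + 1) t k q b ⊆
      ((range M).biUnion fun i => (range Qn).biUnion fun q' =>
        (Icc (((k - 1) * wd M (j + 1) q) / wd M j q')
          (((k + 2) * wd M (j + 1) q) / wd M j q')).biUnion
          fun k' => S j (M * t + i) k' q' (b - ξ j (M * t + i) - D * cd q' q)) ∪
      (sc (j + 1)).biUnion fun h => (range (Lam h)).biUnion fun l =>
        (range (M ^ h)).biUnion fun u => S (j + 1 - h) (M ^ h * t + u) (lk h l u) (lq h l u)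
          (b - Xi M ξ h (j + 1 - h) (M ^ h * t + u) - D * lx h l u + h))
    (hCb : ∀ j, 1 + ∑ h ∈ sc (j + 1), 20 * (Lam h : ℝ) * Real.exp (lam * h) / (M : ℝ) ^ h ≤ C) :
    ∀ (j t : ℕ) (A B : ℤ) (q : ℕ) (b : ℤ), A ≤ B → ((Fam S M Qn D j t A B q b).card : ℝ) ≤
      2 * ((B : ℝ) - A + 12 * (2 ^ q * (M : ℝ) ^ j)) * C ^ j * Real.exp (lam * b) *
        Wt M ξ lam j t := by
  have hMp : 0 < M := by omega
  have hM' : (0 : ℝ) < M := by exact_mod_cast hMp
  have hM20 : (20 : ℝ) ≤ M := by exact_mod_cast hM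
  have hC0 : 0 < C := by linarith
  -- the exponential weight of a class distance
  have hexp : ∀ (c : ℕ) (b : ℤ), Real.exp (lam * ((b - D * c : ℤ) : ℝ)) ≤
      Real.exp (lam * b) * ((1 : ℝ) / 4) ^ c := by
    intro c b
    have h1 : Real.exp (lam * ((b - D * c : ℤ) : ℝ)) =
        Real.exp (lam * b) * Real.exp (-(lam * (D * c))) := by
      rw [← Real.exp_add]; congr 1; push_cast; ring
    rw [h1]
    exact mul_le_mul_of_nonneg_left (exp_cd hD c) (Real.exp_pos _).le
  choose lk lq lx hlq hS using hs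
  intro j
  induction j using Nat.strong_induction_on with
  | _ j ih =>
  intro t A B q b hAB
  have hABr : (0 : ℝ) ≤ (B : ℝ) - A := by
    have : (A : ℝ) ≤ B := by exact_mod_cast hAB
    linarith
  rcases Nat.eq_zero_or_pos j with rfl | hj
  · -- leaves
    have hW : Wt M ξ lam 0 t = 1 := by simp [Wt, Xi_zero]
    rw [hW]
    have h1 : ((Fam S M Qn D 0 t A B q b).card : ℝ) ≤ ∑ q' ∈ range Qn,
        ∑ k ∈ Icc (A / wd M 0 q') (B / wd M 0 q'), ((S 0 t k q' (b - D * cd q' q)).card : ℝ) := by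
      have h2 : (Fam S M Qn D 0 t A B q b).card ≤ ∑ q' ∈ range Qn,
        ∑ k ∈ Icc (A / wd M 0 q') (B / wd M 0 q'), (S 0 t k q' (b - D * cd q' q)).card :=
        Finset.card_biUnion_le.trans (Finset.sum_le_sum fun q' _ => Finset.card_biUnion_le)
      exact_mod_cast h2
    refine h1.trans ?_
    have h3 : ∀ q' ∈ range Qn, ∑ k ∈ Icc (A / wd M 0 q') (B / wd M 0 q'),
        ((S 0 t k q' (b - D * cd q' q)).card : ℝ) ≤
        ((B : ℝ) - A + 2) * Real.exp (lam * b) * ((1 : ℝ) / 4) ^ cd q' q := by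
      intro q' _
      rcases lt_or_ge (b - D * cd q' q) 0 with hb | hb
      · rw [Finset.sum_eq_zero fun k _ => by rw [h0' t k q' _ hb]; simp]
        positivity
      · have h4 : ∑ k ∈ Icc (A / wd M 0 q') (B / wd M 0 q'),
            ((S 0 t k q' (b - D * cd q' q)).card : ℝ) ≤
            ((Icc (A / wd M 0 q') (B / wd M 0 q')).card : ℝ) := by
          have h5 : ∑ k ∈ Icc (A / wd M 0 q') (B / wd M 0 q'),
            (S 0 t k q' (b - D * cd q' q)).card ≤ (Icc (A / wd M 0 q') (B / wd M 0 q')).card := by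
            refine (Finset.sum_le_sum fun k _ => h0 t k q' _).trans ?_
            simp
          exact_mod_cast h5
        have h6 := card_Icc_div (wd_pos hMp 0 q') hAB
        have h7 : ((B : ℝ) - A) / (wd M 0 q' : ℤ) ≤ (B : ℝ) - A := by
          refine div_le_self hABr ?_
          have := wd_pos hMp 0 q'
          exact_mod_cast this
        have h8 : 1 ≤ Real.exp (lam * b) * ((1 : ℝ) / 4) ^ cd q' q := by
          refine le_trans ?_ (hexp (cd q' q) b)
          apply Real.one_le_exp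
          have : (0 : ℝ) ≤ ((b - D * cd q' q : ℤ) : ℝ) := by exact_mod_cast hb
          positivity
        calc _ ≤ (B : ℝ) - A + 2 := by linarith
          _ = ((B : ℝ) - A + 2) * 1 := by ring
          _ ≤ ((B : ℝ) - A + 2) * (Real.exp (lam * b) * ((1 : ℝ) / 4) ^ cd q' q) :=
            mul_le_mul_of_nonneg_left h8 (by linarith)
          _ = _ := by ring
    refine (Finset.sum_le_sum h3).trans ?_
    rw [← Finset.mul_sum]
    have h9 := sum_cd q Qn
    have h10 : 0 ≤ ((B : ℝ) - A + 2) * Real.exp (lam * b) := by positivity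
    refine (mul_le_mul_of_nonneg_left h9 h10).trans ?_
    have h11 : (1 : ℝ) ≤ 2 ^ q := one_le_pow₀ (by norm_num)
    have h12 : ((B : ℝ) - A + 2) * (5 / 3) ≤ 2 * ((B : ℝ) - A + 12 * (2 ^ q * (M : ℝ) ^ 0)) := by
      rw [pow_zero]; nlinarith
    have h13 := mul_le_mul_of_nonneg_right h12 (Real.exp_pos (lam * b)).le
    calc ((B : ℝ) - A + 2) * Real.exp (lam * b) * (5 / 3)
        = ((B : ℝ) - A + 2) * (5 / 3) * Real.exp (lam * b) := by ring
      _ ≤ _ := h13
      _ = _ := by ring
  · obtain ⟨j, rfl⟩ : ∃ k, j = k + 1 := ⟨j - 1, by omega⟩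
    set base : Finset γ := (range M).biUnion fun i =>
      Fam S M Qn D j (M * t + i) A B q (b - ξ j (M * t + i)) with hbase
    set side1 : Finset γ := (range M).biUnion fun i => (range Qn).biUnion fun q' =>
      Fam S M Qn D j (M * t + i) (A - 2 * wd M (j + 1) q') A q'
        (b - ξ j (M * t + i) - D * cd q' q) with hside1
    set side2 : Finset γ := (range M).biUnion fun i => (range Qn).biUnion fun q' =>
      Fam S M Qn D j (M * t + i) B (B + 2 * wd M (j + 1) q') q'
        (b - ξ j (M * t + i) - D * cd q' q) with hside2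
    set lan : ℕ → ℤ → ℕ → Finset γ := fun q' k h => (range (Lam h)).biUnion fun l =>
      (range (M ^ h)).biUnion fun u => S (j + 1 - h) (M ^ h * t + u)
        (lk j t k q' (b - D * cd q' q) h l u) (lq j t k q' (b - D * cd q' q) h l u)
        (b - D * cd q' q - Xi M ξ h (j + 1 - h) (M ^ h * t + u)
          - D * lx j t k q' (b - D * cd q' q) h l u + h) with hlan
    set lans : Finset γ := (range Qn).biUnion fun q' =>
      (Icc (A / wd M (j + 1) q') (B / wd M (j + 1) q')).biUnion fun k =>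
        (sc (j + 1)).biUnion fun h => lan q' k h with hlans
    have hsub : Fam S M Qn D (j + 1) t A B q b ⊆ base ∪ side1 ∪ side2 ∪ lans := by
      intro y hy
      rw [mem_Fam] at hy
      obtain ⟨q', hq', k, hk1, hk2, hy⟩ := hy
      have hwp := wd_pos hMp (j + 1) q'
      have hk1' : A < (k + 1) * wd M (j + 1) q' := by
        have h1 := Int.lt_ediv_add_one_mul_self A hwp
        have h2 : (A / wd M (j + 1) q' + 1) * wd M (j + 1) q' ≤ (k + 1) * wd M (j + 1) q' :=
          mul_le_mul_of_nonneg_right (by omega) hwp.le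
        omega
      have hk2' : k * wd M (j + 1) q' ≤ B := by
        have h1 := Int.ediv_mul_le B hwp.ne'
        have h2 : k * wd M (j + 1) q' ≤ (B / wd M (j + 1) q') * wd M (j + 1) q' :=
          mul_le_mul_of_nonneg_right hk2 hwp.le
        omega
      rcases Finset.mem_union.1 (hS j t k q' _ hy) with hy | hy
      · simp only [Finset.mem_biUnion, Finset.mem_range, Finset.mem_Icc] at hy
        obtain ⟨i, hi, q'', hq'', k'', ⟨hk3, hk4⟩, hy⟩ := hy
        have hwp2 := wd_pos hMp j q''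
        rcases lt_or_ge k'' (A / wd M j q'') with hc1 | hc1
        · -- left side
          refine Finset.mem_union_left _ (Finset.mem_union_left _ (Finset.mem_union_right _ ?_))
          rw [hside1, Finset.mem_biUnion]
          refine ⟨i, Finset.mem_range.2 hi, ?_⟩
          rw [Finset.mem_biUnion]
          refine ⟨q', Finset.mem_range.2 hq', ?_⟩
          rw [mem_Fam]
          refine ⟨q'', hq'', k'', ?_, hc1.le, ?_⟩
          · refine (Int.ediv_le_ediv hwp2 ?_).trans hk3
            have : (k - 1) * wd M (j + 1) q' = (k + 1) * wd M (j + 1) q' -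
              2 * wd M (j + 1) q' := by ring
            omega
          · refine hmono _ _ _ _ _ _ (le_of_eq ?_) hy
            ring
        · rcases lt_or_ge (B / wd M j q'') k'' with hc2 | hc2
          · refine Finset.mem_union_left _ (Finset.mem_union_right _ ?_)
            rw [hside2, Finset.mem_biUnion]
            refine ⟨i, Finset.mem_range.2 hi, ?_⟩
            rw [Finset.mem_biUnion]
            refine ⟨q', Finset.mem_range.2 hq', ?_⟩
            rw [mem_Fam]
            refine ⟨q'', hq'', k'', hc2.le, hk4.trans (Int.ediv_le_ediv hwp2 ?_), ?_⟩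
            · have : (k + 2) * wd M (j + 1) q' = k * wd M (j + 1) q' +
                2 * wd M (j + 1) q' := by ring
              omega
            · refine hmono _ _ _ _ _ _ (le_of_eq ?_) hy
              ring
          · refine Finset.mem_union_left _ (Finset.mem_union_left _ (Finset.mem_union_left _ ?_))
            rw [hbase, Finset.mem_biUnion]
            refine ⟨i, Finset.mem_range.2 hi, ?_⟩
            rw [mem_Fam]
            refine ⟨q'', hq'', k'', hc1, hc2, hmono _ _ _ _ _ _ ?_ hy⟩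
            have h1 : cd q'' q ≤ cd q'' q' + cd q' q := cd_triangle _ _ _
            have h2 : D * cd q'' q ≤ D * cd q'' q' + D * cd q' q := by
              rw [← Nat.mul_add]; exact Nat.mul_le_mul_left _ h1
            have h3 : ((D : ℤ) * cd q'' q) ≤ D * cd q'' q' + D * cd q' q := by exact_mod_cast h2
            omega
      · refine Finset.mem_union_right _ ?_
        rw [hlans, Finset.mem_biUnion]
        refine ⟨q', Finset.mem_range.2 hq', ?_⟩
        rw [Finset.mem_biUnion]
        exact ⟨k, Finset.mem_Icc.2 ⟨hk1, hk2⟩, hy⟩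
    have hcard : ((Fam S M Qn D (j + 1) t A B q b).card : ℝ) ≤
        base.card + side1.card + side2.card + lans.card := by
      have h1 := Finset.card_le_card hsub
      have h2 := Finset.card_union_le (base ∪ side1 ∪ side2) lans
      have h3 := Finset.card_union_le (base ∪ side1) side2
      have h4 := Finset.card_union_le base side1
      have h5 : (Fam S M Qn D (j + 1) t A B q b).card ≤
        base.card + side1.card + side2.card + lans.card := by omega
      exact_mod_cast h5
    -- the common factor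
    set W1 : ℝ := Wt M ξ lam (j + 1) t with hW1
    have hW1n : 0 ≤ W1 := Wt_nonneg _ _ _ _ _
    have hsplit1 : ∑ i ∈ range M, Real.exp (-(lam * ξ j (M * t + i))) *
        Wt M ξ lam j (M * t + i) = W1 := by
      have h6 := Wt_split hMp ξ lam j 1 t
      rw [pow_one] at h6
      rw [hW1, h6]
      refine Finset.sum_congr rfl fun i _ => ?_
      rw [Xi_one, neg_mul]
    -- baseline
    have hb : (base.card : ℝ) ≤ 2 * ((B : ℝ) - A + 12 * (2 ^ q * (M : ℝ) ^ j)) * C ^ j *
        Real.exp (lam * b) * W1 := by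
      have h1 : (base.card : ℝ) ≤ ∑ i ∈ range M,
          ((Fam S M Qn D j (M * t + i) A B q (b - ξ j (M * t + i))).card : ℝ) := by
        exact_mod_cast Finset.card_biUnion_le
      refine h1.trans ?_
      have h2 : ∀ i ∈ range M,
          ((Fam S M Qn D j (M * t + i) A B q (b - ξ j (M * t + i))).card : ℝ) ≤
          (2 * ((B : ℝ) - A + 12 * (2 ^ q * (M : ℝ) ^ j)) * C ^ j * Real.exp (lam * b)) *
            (Real.exp (-(lam * ξ j (M * t + i))) * Wt M ξ lam j (M * t + i)) := by
        intro i _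
        refine (ih j (by omega) (M * t + i) A B q (b - ξ j (M * t + i)) hAB).trans (le_of_eq ?_)
        have h5 : Real.exp (lam * ((b - ξ j (M * t + i) : ℤ) : ℝ)) =
            Real.exp (lam * b) * Real.exp (-(lam * ξ j (M * t + i))) := by
          rw [← Real.exp_add]; congr 1; push_cast; ring
        rw [h5]
        ring
      refine (Finset.sum_le_sum h2).trans (le_of_eq ?_)
      rw [← Finset.mul_sum, hsplit1]
    -- sides
    have hside : ∀ (A' B' : ℕ → ℤ), (∀ q', B' q' = A' q' + 2 * wd M (j + 1) q') →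
        ((((range M).biUnion fun i => (range Qn).biUnion fun q' =>
          Fam S M Qn D j (M * t + i) (A' q') (B' q') q'
            (b - ξ j (M * t + i) - D * cd q' q)).card : ℕ) : ℝ) ≤
        2 * (2 * (M : ℝ) ^ (j + 1) + 12 * (M : ℝ) ^ j) * (15 / 7 * 2 ^ q) * C ^ j *
          Real.exp (lam * b) * W1 := by
      intro A' B' hA'
      have h1 : ((((range M).biUnion fun i => (range Qn).biUnion fun q' =>
          Fam S M Qn D j (M * t + i) (A' q') (B' q') q'
            (b - ξ j (M * t + i) - D * cd q' q)).card : ℕ) : ℝ) ≤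
          ∑ i ∈ range M, ∑ q' ∈ range Qn, ((Fam S M Qn D j (M * t + i) (A' q') (B' q') q'
            (b - ξ j (M * t + i) - D * cd q' q)).card : ℝ) := by
        have h2 := Finset.card_biUnion_le.trans (Finset.sum_le_sum fun i (_ : i ∈ range M) =>
          (Finset.card_biUnion_le (s := range Qn) (t := fun q' => Fam S M Qn D j (M * t + i)
            (A' q') (B' q') q' (b - ξ j (M * t + i) - D * cd q' q))))
        exact_mod_cast h2
      refine h1.trans ?_
      have h2 : ∀ i ∈ range M, ∑ q' ∈ range Qn, ((Fam S M Qn D j (M * t + i) (A' q') (B' q') q'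
            (b - ξ j (M * t + i) - D * cd q' q)).card : ℝ) ≤
          (2 * (2 * (M : ℝ) ^ (j + 1) + 12 * (M : ℝ) ^ j) * (15 / 7 * 2 ^ q) * C ^ j *
            Real.exp (lam * b)) * (Real.exp (-(lam * ξ j (M * t + i))) *
              Wt M ξ lam j (M * t + i)) := by
        intro i _
        have hwn : 0 ≤ Real.exp (-(lam * ξ j (M * t + i))) * Wt M ξ lam j (M * t + i) :=
          mul_nonneg (Real.exp_pos _).le (Wt_nonneg _ _ _ _ _)
        have h3 : ∀ q' ∈ range Qn, ((Fam S M Qn D j (M * t + i) (A' q') (B' q') q'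
            (b - ξ j (M * t + i) - D * cd q' q)).card : ℝ) ≤
            (2 * (2 * (M : ℝ) ^ (j + 1) + 12 * (M : ℝ) ^ j) * C ^ j * Real.exp (lam * b) *
              (Real.exp (-(lam * ξ j (M * t + i))) * Wt M ξ lam j (M * t + i))) *
              (2 ^ q' * ((1 : ℝ) / 4) ^ cd q' q) := by
          intro q' _
          have hw0 := (wd_pos hMp (j + 1) q').le
          have h4 := ih j (by omega) (M * t + i) (A' q') (B' q') q'
            (b - ξ j (M * t + i) - D * cd q' q) (by rw [hA']; omega)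
          refine h4.trans ?_
          have h5 : ((B' q' : ℤ) : ℝ) - A' q' = 2 * (2 ^ q' * (M : ℝ) ^ (j + 1)) := by
            rw [hA', wd]; push_cast; ring
          rw [h5]
          have h6 := hexp (cd q' q) (b - ξ j (M * t + i))
          have h7 : Real.exp (lam * ((b - ξ j (M * t + i) : ℤ) : ℝ)) =
            Real.exp (lam * b) * Real.exp (-(lam * ξ j (M * t + i))) := by
            rw [← Real.exp_add]; congr 1; push_cast; ring
          rw [h7] at h6
          have h8 : 0 ≤ 2 * (2 * (2 ^ q' * (M : ℝ) ^ (j + 1)) + 12 * (2 ^ q' * (M : ℝ) ^ j)) *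
            C ^ j := by positivity
          have h9 := mul_le_mul_of_nonneg_right (mul_le_mul_of_nonneg_left h6 h8)
            (Wt_nonneg M ξ lam j (M * t + i))
          refine h9.trans (le_of_eq ?_)
          ring
        refine (Finset.sum_le_sum h3).trans ?_
        rw [← Finset.mul_sum]
        have h10 := sum_two_pow_cd q Qn
        have h11 : 0 ≤ 2 * (2 * (M : ℝ) ^ (j + 1) + 12 * (M : ℝ) ^ j) * C ^ j *
          Real.exp (lam * b) * (Real.exp (-(lam * ξ j (M * t + i))) *
            Wt M ξ lam j (M * t + i)) := mul_nonneg (by positivity) hwn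
        refine (mul_le_mul_of_nonneg_left h10 h11).trans (le_of_eq ?_)
        ring
      refine (Finset.sum_le_sum h2).trans (le_of_eq ?_)
      rw [← Finset.mul_sum, hsplit1]
    have hs1 := hside (fun q' => A - 2 * wd M (j + 1) q') (fun _ => A) (fun q' => by ring)
    have hs2 := hside (fun _ => B) (fun q' => B + 2 * wd M (j + 1) q') (fun q' => by ring)
    -- lanes
    set Z : ℝ := ∑ h ∈ sc (j + 1), (Lam h : ℝ) * Real.exp (lam * h) / (M : ℝ) ^ h with hZ
    have hZn : 0 ≤ Z := Finset.sum_nonneg fun h _ => by positivity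
    have hZC : 1 + 20 * Z ≤ C := by
      refine le_trans (le_of_eq ?_) (hCb j)
      rw [hZ, Finset.mul_sum]
      congr 1
      exact Finset.sum_congr rfl fun h _ => by ring
    have hl1 : ∀ q' k, ∀ h ∈ sc (j + 1), ((lan q' k h).card : ℝ) ≤
        (24 * (2 ^ q' * (M : ℝ) ^ (j + 1)) * C ^ j *
          (Real.exp (lam * b) * ((1 : ℝ) / 4) ^ cd q' q) * W1) *
          ((Lam h : ℝ) * Real.exp (lam * h) / (M : ℝ) ^ h) := by
      intro q' k h hh
      obtain ⟨hh1, hh2⟩ := hsc _ h hh
      have h1 : ((lan q' k h).card : ℝ) ≤ ∑ l ∈ range (Lam h), ∑ u ∈ range (M ^ h),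
          ((S (j + 1 - h) (M ^ h * t + u)
            (lk j t k q' (b - D * cd q' q) h l u) (lq j t k q' (b - D * cd q' q) h l u)
            (b - D * cd q' q - Xi M ξ h (j + 1 - h) (M ^ h * t + u)
              - D * lx j t k q' (b - D * cd q' q) h l u + h)).card : ℝ) := by
        have h2 : (lan q' k h).card ≤ ∑ l ∈ range (Lam h), ∑ u ∈ range (M ^ h),
          (S (j + 1 - h) (M ^ h * t + u)
            (lk j t k q' (b - D * cd q' q) h l u) (lq j t k q' (b - D * cd q' q) h l u)
            (b - D * cd q' q - Xi M ξ h (j + 1 - h) (M ^ h * t + u)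
              - D * lx j t k q' (b - D * cd q' q) h l u + h)).card :=
          Finset.card_biUnion_le.trans (Finset.sum_le_sum fun l _ => Finset.card_biUnion_le)
        exact_mod_cast h2
      refine h1.trans ?_
      have h3 : ∀ l ∈ range (Lam h), ∑ u ∈ range (M ^ h),
          ((S (j + 1 - h) (M ^ h * t + u)
            (lk j t k q' (b - D * cd q' q) h l u) (lq j t k q' (b - D * cd q' q) h l u)
            (b - D * cd q' q - Xi M ξ h (j + 1 - h) (M ^ h * t + u)
              - D * lx j t k q' (b - D * cd q' q) h l u + h)).card : ℝ) ≤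
          24 * (2 ^ q' * (M : ℝ) ^ (j + 1 - h)) * C ^ j * Real.exp (lam * h) *
            (Real.exp (lam * b) * ((1 : ℝ) / 4) ^ cd q' q) * W1 := by
        intro l _
        have h4 : ∀ u ∈ range (M ^ h), ((S (j + 1 - h) (M ^ h * t + u)
            (lk j t k q' (b - D * cd q' q) h l u) (lq j t k q' (b - D * cd q' q) h l u)
            (b - D * cd q' q - Xi M ξ h (j + 1 - h) (M ^ h * t + u)
              - D * lx j t k q' (b - D * cd q' q) h l u + h)).card : ℝ) ≤
            (24 * (2 ^ q' * (M : ℝ) ^ (j + 1 - h)) * C ^ j * Real.exp (lam * h) *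
              (Real.exp (lam * b) * ((1 : ℝ) / 4) ^ cd q' q)) *
              (Real.exp (- lam * (Xi M ξ h (j + 1 - h) (M ^ h * t + u) : ℝ)) *
                Wt M ξ lam (j + 1 - h) (M ^ h * t + u)) := by
          intro u _
          obtain ⟨hq1, hq2⟩ := hlq j t k q' (b - D * cd q' q) h l u
          set x := lx j t k q' (b - D * cd q' q) h l u with hx
          set qu := lq j t k q' (b - D * cd q' q) h l u with hqu
          set X := Xi M ξ h (j + 1 - h) (M ^ h * t + u) with hX
          have h5 := (Finset.card_le_card (single_sub_Fam (S := S) (D := D) hMp (j := j + 1 - h)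
            (t := M ^ h * t + u) (k := lk j t k q' (b - D * cd q' q) h l u) hq1
            (b := b - D * cd q' q - X - D * x + h)))
          have h6 : ((S (j + 1 - h) (M ^ h * t + u) (lk j t k q' (b - D * cd q' q) h l u) qu
              (b - D * cd q' q - X - D * x + h)).card : ℝ) ≤ _ := (Nat.cast_le.2 h5).trans
            (ih (j + 1 - h) (by omega) (M ^ h * t + u) _ _ qu
              (b - D * cd q' q - X - D * x + h) le_rfl)
          refine h6.trans ?_
          rw [sub_self, zero_add]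
          have h7 : Real.exp (lam * ((b - D * cd q' q - X - D * x + h : ℤ) : ℝ)) =
              Real.exp (lam * h) * Real.exp (- lam * (X : ℝ)) *
                (Real.exp (lam * ((b - D * cd q' q : ℤ) : ℝ)) * Real.exp (-(lam * (D * x)))) := by
            rw [← Real.exp_add, ← Real.exp_add, ← Real.exp_add]; congr 1; push_cast; ring
          rw [h7]
          have h8 : C ^ (j + 1 - h) ≤ C ^ j := pow_le_pow_right₀ hC (by omega)
          have h9 : (2 : ℝ) ^ qu * Real.exp (-(lam * (D * x))) ≤ 2 ^ q' := by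
            have e1 := exp_cd hD x
            have e2 : (2 : ℝ) ^ qu ≤ 2 ^ (q' + x) :=
              pow_le_pow_right₀ (by norm_num) (by unfold cd at hq2; omega)
            calc (2 : ℝ) ^ qu * Real.exp (-(lam * (D * x)))
                ≤ 2 ^ (q' + x) * ((1 : ℝ) / 4) ^ x :=
                  mul_le_mul e2 e1 (Real.exp_pos _).le (by positivity)
              _ = 2 ^ q' * ((1 : ℝ) / 2) ^ x := by
                  rw [pow_add, mul_assoc, ← mul_pow]; norm_num
              _ ≤ 2 ^ q' * 1 := by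
                  refine mul_le_mul_of_nonneg_left ?_ (by positivity)
                  exact pow_le_one₀ (by norm_num) (by norm_num)
              _ = _ := mul_one _
          have h10 := hexp (cd q' q) b
          have hWn := Wt_nonneg M ξ lam (j + 1 - h) (M ^ h * t + u)
          calc 2 * (12 * (2 ^ qu * (M : ℝ) ^ (j + 1 - h))) * C ^ (j + 1 - h) *
                (Real.exp (lam * h) * Real.exp (- lam * (X : ℝ)) *
                (Real.exp (lam * ((b - D * cd q' q : ℤ) : ℝ)) * Real.exp (-(lam * (D * x))))) *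
                Wt M ξ lam (j + 1 - h) (M ^ h * t + u)
              = (2 ^ qu * Real.exp (-(lam * (D * x)))) * C ^ (j + 1 - h) *
                Real.exp (lam * ((b - D * cd q' q : ℤ) : ℝ)) *
                (24 * (M : ℝ) ^ (j + 1 - h) * Real.exp (lam * h) *
                  (Real.exp (- lam * (X : ℝ)) * Wt M ξ lam (j + 1 - h) (M ^ h * t + u))) := by
                ring
            _ ≤ 2 ^ q' * C ^ j * (Real.exp (lam * b) * ((1 : ℝ) / 4) ^ cd q' q) *
                (24 * (M : ℝ) ^ (j + 1 - h) * Real.exp (lam * h) *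
                  (Real.exp (- lam * (X : ℝ)) * Wt M ξ lam (j + 1 - h) (M ^ h * t + u))) := by
                refine mul_le_mul_of_nonneg_right ?_ (by positivity)
                refine mul_le_mul (mul_le_mul h9 h8 (by positivity) (by positivity)) h10
                  (Real.exp_pos _).le (by positivity)
            _ = _ := by ring
        refine (Finset.sum_le_sum h4).trans (le_of_eq ?_)
        rw [← Finset.mul_sum]
        have h11 := Wt_split hMp ξ lam (j + 1 - h) h t
        rw [Nat.sub_add_cancel hh2] at h11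
        rw [← h11]
      refine (Finset.sum_le_sum h3).trans (le_of_eq ?_)
      rw [Finset.sum_const, Finset.card_range, nsmul_eq_mul]
      have h12 : (M : ℝ) ^ (j + 1) = (M : ℝ) ^ (j + 1 - h) * (M : ℝ) ^ h := by
        rw [← pow_add]; congr 1; omega
      rw [h12]
      field_simp
    have hl : (lans.card : ℝ) ≤ 2 * ((B : ℝ) - A + 12 * (2 ^ q * (M : ℝ) ^ (j + 1))) * C ^ j *
        Real.exp (lam * b) * W1 * (20 * Z) := by
      have h1 : (lans.card : ℝ) ≤ ∑ q' ∈ range Qn,
          ∑ k ∈ Icc (A / wd M (j + 1) q') (B / wd M (j + 1) q'),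
            ∑ h ∈ sc (j + 1), ((lan q' k h).card : ℝ) := by
        have h2 : lans.card ≤ ∑ q' ∈ range Qn,
          ∑ k ∈ Icc (A / wd M (j + 1) q') (B / wd M (j + 1) q'),
            ∑ h ∈ sc (j + 1), (lan q' k h).card :=
          Finset.card_biUnion_le.trans (Finset.sum_le_sum fun q' _ =>
            Finset.card_biUnion_le.trans (Finset.sum_le_sum fun k _ => Finset.card_biUnion_le))
        exact_mod_cast h2
      refine h1.trans ?_
      have hK : 0 ≤ 24 * C ^ j * Real.exp (lam * b) * W1 * Z := by positivity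
      have h2 : ∀ q' ∈ range Qn, ∑ k ∈ Icc (A / wd M (j + 1) q') (B / wd M (j + 1) q'),
            ∑ h ∈ sc (j + 1), ((lan q' k h).card : ℝ) ≤
          (24 * C ^ j * Real.exp (lam * b) * W1 * Z) *
            (((B : ℝ) - A) * ((1 : ℝ) / 4) ^ cd q' q +
              2 * (M : ℝ) ^ (j + 1) * (2 ^ q' * ((1 : ℝ) / 4) ^ cd q' q)) := by
        intro q' _
        have h3 : ∀ k ∈ Icc (A / wd M (j + 1) q') (B / wd M (j + 1) q'),
            ∑ h ∈ sc (j + 1), ((lan q' k h).card : ℝ) ≤
            (24 * (2 ^ q' * (M : ℝ) ^ (j + 1)) * C ^ j *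
              (Real.exp (lam * b) * ((1 : ℝ) / 4) ^ cd q' q) * W1) * Z := by
          intro k _
          refine (Finset.sum_le_sum fun h hh => hl1 q' k h hh).trans (le_of_eq ?_)
          rw [← Finset.mul_sum]
        refine (Finset.sum_le_sum h3).trans ?_
        rw [Finset.sum_const, nsmul_eq_mul]
        have h4 := card_Icc_div (wd_pos hMp (j + 1) q') hAB
        have h5 : ((wd M (j + 1) q' : ℤ) : ℝ) = 2 ^ q' * (M : ℝ) ^ (j + 1) := by
          rw [wd]; push_cast; ring
        rw [h5] at h4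
        have h6 : 0 ≤ (24 * (2 ^ q' * (M : ℝ) ^ (j + 1)) * C ^ j *
              (Real.exp (lam * b) * ((1 : ℝ) / 4) ^ cd q' q) * W1) * Z := by positivity
        refine (mul_le_mul_of_nonneg_right h4 h6).trans (le_of_eq ?_)
        have h7 : (2 : ℝ) ^ q' * (M : ℝ) ^ (j + 1) ≠ 0 := by positivity
        rw [div_add' _ _ _ h7, div_mul_eq_mul_div, div_eq_iff h7]
        ring
      refine (Finset.sum_le_sum h2).trans ?_
      rw [← Finset.mul_sum, Finset.sum_add_distrib, ← Finset.mul_sum, ← Finset.mul_sum]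
      have h8 := sum_cd q Qn
      have h9 := sum_two_pow_cd q Qn
      have h10 : ((B : ℝ) - A) * ∑ i ∈ range Qn, ((1 : ℝ) / 4) ^ cd i q +
          2 * (M : ℝ) ^ (j + 1) * ∑ i ∈ range Qn, 2 ^ i * ((1 : ℝ) / 4) ^ cd i q ≤
          5 / 3 * ((B : ℝ) - A + 12 * (2 ^ q * (M : ℝ) ^ (j + 1))) := by
        have e1 := mul_le_mul_of_nonneg_left h8 hABr
        have e2 := mul_le_mul_of_nonneg_left h9 (show (0 : ℝ) ≤ 2 * (M : ℝ) ^ (j + 1) by
          positivity)
        have e3 : (0 : ℝ) ≤ 2 ^ q * (M : ℝ) ^ (j + 1) := by positivity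
        nlinarith
      refine (mul_le_mul_of_nonneg_left h10 hK).trans (le_of_eq ?_)
      ring
    -- conclusion
    have hE : 0 ≤ C ^ j * Real.exp (lam * b) * W1 := by positivity
    have hX : (0 : ℝ) ≤ 2 ^ q * (M : ℝ) ^ j := by positivity
    have hbs : 2 * ((B : ℝ) - A + 12 * (2 ^ q * (M : ℝ) ^ j)) +
        2 * (2 * (2 * (M : ℝ) ^ (j + 1) + 12 * (M : ℝ) ^ j) * (15 / 7 * 2 ^ q)) ≤
        2 * ((B : ℝ) - A + 12 * (2 ^ q * (M : ℝ) ^ (j + 1))) := by
      rw [pow_succ]
      nlinarith [mul_nonneg hX (show (0 : ℝ) ≤ M - 20 by linarith)]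
    have htot : ((Fam S M Qn D (j + 1) t A B q b).card : ℝ) ≤
        2 * ((B : ℝ) - A + 12 * (2 ^ q * (M : ℝ) ^ (j + 1))) *
          (C ^ j * Real.exp (lam * b) * W1) * (1 + 20 * Z) := by
      have e1 := mul_le_mul_of_nonneg_right hbs hE
      have e2 : (side1.card : ℝ) ≤ 2 * (2 * (M : ℝ) ^ (j + 1) + 12 * (M : ℝ) ^ j) *
        (15 / 7 * 2 ^ q) * C ^ j * Real.exp (lam * b) * W1 := hs1
      have e3 : (side2.card : ℝ) ≤ 2 * (2 * (M : ℝ) ^ (j + 1) + 12 * (M : ℝ) ^ j) *
        (15 / 7 * 2 ^ q) * C ^ j * Real.exp (lam * b) * W1 := hs2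
      nlinarith
    refine htot.trans ?_
    have hY : 0 ≤ 2 * ((B : ℝ) - A + 12 * (2 ^ q * (M : ℝ) ^ (j + 1))) *
          (C ^ j * Real.exp (lam * b) * W1) := by positivity
    refine (mul_le_mul_of_nonneg_left hZC hY).trans (le_of_eq ?_)
    rw [pow_succ C j]
    ring

/-- The set of hypotheses of `class_area` for one run. -/
structure ClassRun {γ : Type*} [DecidableEq γ] (M Qn D : ℕ) (ξ : ℕ → ℕ → ℕ) (sc : ℕ → Finset ℕ)
    (Lam : ℕ → ℕ) (S : ℕ → ℕ → ℤ → ℕ → ℤ → Finset γ) : Prop where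
  mono : ∀ j t k q b b', b ≤ b' → S j t k q b ⊆ S j t k q b'
  leaf : ∀ t k q b, (S 0 t k q b).card ≤ 1
  leaf_neg : ∀ t k q b, b < 0 → S 0 t k q b = ∅
  step : ∀ j t k q b, ∃ (lk : ℕ → ℕ → ℕ → ℤ) (lq lx : ℕ → ℕ → ℕ → ℕ),
      (∀ h l u, lq h l u < Qn ∧ cd (lq h l u) q ≤ lx h l u) ∧
      S (j + 1) t k q b ⊆
      ((range M).biUnion fun i => (range Qn).biUnion fun q' =>
        (Icc (((k - 1) * wd M (j + 1) q) / wd M j q')
          (((k + 2) * wd M (j + 1) q) / wd M j q')).biUnion
          fun k' => S j (M * t + i) k' q' (b - ξ j (M * t + i) - D * cd q' q)) ∪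
      (sc (j + 1)).biUnion fun h => (range (Lam h)).biUnion fun l =>
        (range (M ^ h)).biUnion fun u => S (j + 1 - h) (M ^ h * t + u) (lk h l u) (lq h l u)
          (b - Xi M ξ h (j + 1 - h) (M ^ h * t + u) - D * lx h l u + h)

/-- **Mean area of the read sets with density classes.** -/
theorem mean_class_area {γ : Type*} [DecidableEq γ] {Tb : Type*} [Fintype Tb] [DecidableEq Tb]
    {M : ℕ} (hM : 20 ≤ M) {lam C : ℝ} (hlam : 0 ≤ lam) (hC : 1 ≤ C) {D : ℕ}
    (hD : 4 ≤ Real.exp (lam * D)) {Qn J : ℕ} {ξ : (Tb → Fin (J + 1)) → ℕ → ℕ → ℕ}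
    {S : (Tb → Fin (J + 1)) → ℕ → ℕ → ℤ → ℕ → ℤ → Finset γ}
    {sc : ℕ → Finset ℕ} (hsc : ∀ j, ∀ h ∈ sc j, 1 ≤ h ∧ h ≤ j) {Lam : ℕ → ℕ}
    (hrun : ∀ x, ClassRun M Qn D (ξ x) sc Lam (S x))
    (hCb : ∀ j, 1 + ∑ h ∈ sc (j + 1), 20 * (Lam h : ℝ) * Real.exp (lam * h) / (M : ℝ) ^ h ≤ C)
    (n t : ℕ) (A B : ℤ) (hAB : A ≤ B) (q : ℕ) (b : ℤ) (co : ℕ → ℕ → Tb)
    (hξ : ∀ x, ∀ r < M ^ n, ∀ k < n, ξ x k ((M ^ n * t + r) / M ^ k) = (x (co r k) : ℕ))
    (hc : ∀ r < M ^ n, Set.InjOn (co r) (range n : Finset ℕ)) :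
    (∑ x : Tb → Fin (J + 1), ((Fam (S x) M Qn D n t A B q b).card : ℝ)) /
        (Fintype.card (Tb → Fin (J + 1)) : ℝ) ≤
      2 * ((B : ℝ) - A + 12 * (2 ^ q * (M : ℝ) ^ n)) * (M : ℝ) ^ n * C ^ n *
        Real.exp (lam * b + n * (- lam * J / 2 + lam ^ 2 * J ^ 2 / 8)) := by
  have hABr : (0 : ℝ) ≤ (B : ℝ) - A := by
    have : (A : ℝ) ≤ B := by exact_mod_cast hAB
    linarith
  have hC0 : 0 < C := by linarith
  have h1 : ∀ x ∈ (Finset.univ : Finset (Tb → Fin (J + 1))),
      ((Fam (S x) M Qn D n t A B q b).card : ℝ) ≤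
      (2 * ((B : ℝ) - A + 12 * (2 ^ q * (M : ℝ) ^ n)) * C ^ n * Real.exp (lam * b)) *
        Wt M (ξ x) lam n t := fun x _ =>
    class_area hM hlam hC hD hsc (hrun x).mono (hrun x).leaf (hrun x).leaf_neg (hrun x).step hCb
      n t A B q b hAB
  have hN : (0 : ℝ) ≤ (Fintype.card (Tb → Fin (J + 1)) : ℝ) := Nat.cast_nonneg _
  refine (div_le_div_of_nonneg_right (Finset.sum_le_sum h1) hN).trans ?_
  rw [← Finset.mul_sum, mul_div_assoc]
  have h2 := mean_Wt J n t lam ξ co hξ hc
  have h3 : 0 ≤ 2 * ((B : ℝ) - A + 12 * (2 ^ q * (M : ℝ) ^ n)) * C ^ n * Real.exp (lam * b) := by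
    positivity
  refine (mul_le_mul_of_nonneg_left h2 h3).trans (le_of_eq ?_)
  rw [Real.exp_add]
  ring

end Vale.Agent.P315.H155
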