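import Vale.Agent.P315.H155.MachWG
import Vale.Agent.P315.H763.LabList
import Vale.Agent.P315.C.Fam

/-!
P315, milestone 2 (helper155): the concrete family of parameters.

`m`: `M = 2 ^ (20 m)`; `k`: `J + 1 = 2 ^ k`; `cd`: the cut is `n / cd` below `J n / 2`; `D1`: penalty
per change of the class; `n` levels, scales `1, …, S`, row length `ℓ`, mesh `μ`, positions at most
`B`, box width `w0`, classes of the rows at most `Kc` (labels have classes at most `Kc + 3`).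
-/

set_option autoImplicit false

namespace Vale.Agent.P315.H155

open Vale.Agent.P315.H220 Vale.Agent.P315.H763 Vale.Agent.P315.C

/-- The numbers of the machines of scale `s`. -/
def famMPW (m : ℕ) : MPW where
  g := fun s => 2 ^ (2 * m * 2 ^ s)
  Dl := fun s => 16 ^ s * m ^ 2
  NL := fun s => m * 2 ^ s + 6
  R := fun s => 2 ^ (m * 2 ^ s + 8)
  Sm := fun s => 2 ^ (4 * m * 2 ^ s)
  T := fun s => 2 ^ (270 * m * 2 ^ s)
  Sh := fun s => 2 ^ (400 * m * 2 ^ s)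
  Rh := fun s => 2 ^ (70 * m * 2 ^ s)
  C := 66

/-- The machines of the family. -/
def famMach (m μ B w0 Kc : ℕ) : Mach :=
  machW (famMPW m) (labL (20 * m) (Kc + 3)) (20 * m) μ B w0

/-- **The family of parameters.** -/
def fam2 (m k cd D1 n S ℓ μ B w0 Kc _κr : ℕ) : QPar where
  P := H95.clsPar (20 * m) ℓ μ B w0 (2 ^ k - 1) (S + 1) (famH m n S) (Kc + 3) D1
  mc := famMach m μ B w0 Kc
  n := n
  N := famN k cd n
  Cn := 2 ^ (4 * m * 2 ^ S)
  q := 2 ^ (k + 270 * m * 2 ^ S + Nat.log 2 ℓ + 1)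

section

variable {m k cd D1 n S ℓ μ B w0 Kc κr : ℕ}

theorem fam2_P : (fam2 m k cd D1 n S ℓ μ B w0 Kc κr).P =
    H95.clsPar (20 * m) ℓ μ B w0 (2 ^ k - 1) (S + 1) (famH m n S) (Kc + 3) D1 := rfl
theorem fam2_mc : (fam2 m k cd D1 n S ℓ μ B w0 Kc κr).mc = famMach m μ B w0 Kc := rfl
theorem fam2_n : (fam2 m k cd D1 n S ℓ μ B w0 Kc κr).n = n := rfl
theorem fam2_N : (fam2 m k cd D1 n S ℓ μ B w0 Kc κr).N = famN k cd n := rfl
theorem fam2_M : (fam2 m k cd D1 n S ℓ μ B w0 Kc κr).P.M = 2 ^ (20 * m) := rfl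
theorem fam2_J : (fam2 m k cd D1 n S ℓ μ B w0 Kc κr).P.J = 2 ^ k - 1 := rfl
theorem fam2_S : (fam2 m k cd D1 n S ℓ μ B w0 Kc κr).P.S = S + 1 := rfl
theorem fam2_H : (fam2 m k cd D1 n S ℓ μ B w0 Kc κr).P.H = famH m n S := rfl
theorem fam2_Cn : (fam2 m k cd D1 n S ℓ μ B w0 Kc κr).Cn = 2 ^ (4 * m * 2 ^ S) := rfl
theorem fam2_q : (fam2 m k cd D1 n S ℓ μ B w0 Kc κr).q =
    2 ^ (k + 270 * m * 2 ^ S + Nat.log 2 ℓ + 1) := rfl
theorem fam2_kids (j a : ℕ) : (fam2 m k cd D1 n S ℓ μ B w0 Kc κr).P.kids j a =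
    H95.kids (20 * m) (Kc + 3) a := rfl
theorem fam2_pen (j e a x : ℕ) : (fam2 m k cd D1 n S ℓ μ B w0 Kc κr).P.pen j e a x =
    D1 * (H95.ac x - H95.ac a) := rfl

theorem fam2_K : (fam2 m k cd D1 n S ℓ μ B w0 Kc κr).K = 2 ^ (20 * m * n) := by
  unfold QPar.K
  rw [fam2_M, fam2_n, ← pow_mul]

theorem fam2_q_pos : 0 < (fam2 m k cd D1 n S ℓ μ B w0 Kc κr).q := by rw [fam2_q]; positivity

theorem fam2_M_pos : 0 < (fam2 m k cd D1 n S ℓ μ B w0 Kc κr).P.M := by rw [fam2_M]; positivity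

theorem fam2_J_succ : (fam2 m k cd D1 n S ℓ μ B w0 Kc κr).P.J + 1 = 2 ^ k := by
  rw [fam2_J]
  have : 1 ≤ 2 ^ k := Nat.one_le_two_pow
  omega

theorem fam2_J_dvd : (fam2 m k cd D1 n S ℓ μ B w0 Kc κr).P.J + 1 ∣
    (fam2 m k cd D1 n S ℓ μ B w0 Kc κr).q := by
  rw [fam2_J_succ, fam2_q]
  exact pow_dvd_pow 2 (by omega)

/-- The number of stored paths divides the range of the seeds. -/
theorem fam2_T_dvd {s : ℕ} (hs : s ≤ S) : (famMPW m).T s ∣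
    (fam2 m k cd D1 n S ℓ μ B w0 Kc κr).q := by
  rw [fam2_q]
  have h1 : 270 * m * 2 ^ s ≤ 270 * m * 2 ^ S :=
    Nat.mul_le_mul_left _ (Nat.pow_le_pow_right (by norm_num) hs)
  exact pow_dvd_pow 2 (by omega)

/-- Small powers of two divide the range of the seeds. -/
theorem fam2_pow_dvd {t : ℕ} (ht : t ≤ Nat.log 2 ℓ + 1) : 2 ^ t ∣
    (fam2 m k cd D1 n S ℓ μ B w0 Kc κr).q := by
  rw [fam2_q]
  exact pow_dvd_pow 2 (by omega)

/-- The sample numbers are numbers of coins. -/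
theorem fam2_Sm_le {s : ℕ} (hs : s ≤ S) : (famMPW m).Sm s ≤
    (fam2 m k cd D1 n S ℓ μ B w0 Kc κr).Cn := by
  rw [fam2_Cn]
  exact Nat.pow_le_pow_right (by norm_num)
    (Nat.mul_le_mul_left _ (Nat.pow_le_pow_right (by norm_num) hs))

theorem fam2_cnt (s : ℕ) : (fam2 m k cd D1 n S ℓ μ B w0 Kc κr).mc.cnt s = (famMPW m).cnt s := rfl

theorem famMPW_cnt_zero : (famMPW m).cnt 0 = 0 := rfl

theorem machOK_fam2 : MachOK (fam2 m k cd D1 n S ℓ μ B w0 Kc κr).P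
    (fam2 m k cd D1 n S ℓ μ B w0 Kc κr).mc :=
  machOKW _ (fun _ _ => labL_ne _ _ _ _) (fun s j a => labL_desc s j a)

end

end Vale.Agent.P315.H155
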