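import Vale.Agent.P315.H155.Fam2

/-!
P315, milestone 2 (helper155): the numbers of the machines of the family, `a = m * 2 ^ s`:
`length_labL_le'`, `pW_le`, `block_err_le`, `log_card_le`, `Phi0_fam_le`.
-/

set_option autoImplicit false

namespace Vale.Agent.P315.H155

open Vale.Agent.P315.H220 Vale.Agent.P315.H763 Vale.Agent.P315.C

/-! ### Powers -/

theorem sq_le_pow {a : ℕ} (h : 24 ≤ a) : 16363 * a ^ 2 ≤ 2 ^ a := by
  induction a, h using Nat.le_induction with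
  | base => norm_num
  | succ a ha ih =>
    have h1 : (a + 1) ^ 2 ≤ 2 * a ^ 2 := by nlinarith
    calc 16363 * (a + 1) ^ 2 ≤ 16363 * (2 * a ^ 2) := Nat.mul_le_mul_left _ h1
      _ = 2 * (16363 * a ^ 2) := by ring
      _ ≤ 2 * 2 ^ a := Nat.mul_le_mul_left _ ih
      _ = 2 ^ (a + 1) := by rw [pow_succ]; ring

theorem lin_le_pow {a : ℕ} (h : 24 ≤ a) : 815 * a ≤ 2 ^ a := by
  have h1 := sq_le_pow h
  nlinarith

theorem le_mul_two_pow {m s : ℕ} (hm : 24 ≤ m) : 24 ≤ m * 2 ^ s :=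
  hm.trans (Nat.le_mul_of_pos_right _ (by positivity))

/-- Number of labels of the units. -/
theorem length_labL_le' {m Kc s a : ℕ} (hm : 24 ≤ m) (h : H95.cl a ≤ Kc) :
    (labL (20 * m) Kc s a).length ≤ 2 ^ (81 * m * 2 ^ s) := by
  refine (length_labL_le h).trans ?_
  set b := m * 2 ^ s with hb
  have hb1 : 24 ≤ b := le_mul_two_pow hm
  have e1 : 2 ^ s * (20 * m) = 20 * b := by rw [hb]; ring
  have e2 : 81 * m * 2 ^ s = b + 80 * b := by rw [hb]; ring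
  rw [e1, e2]
  have h1 := sq_le_pow hb1
  have h2 : 2 ^ (4 * (20 * b) + 1) = 2 * 2 ^ (80 * b) := by
    rw [pow_succ, show 4 * (20 * b) = 80 * b by ring]; ring
  have h3 : 1 ≤ 2 ^ (80 * b) := Nat.one_le_two_pow
  calc 1 + (4 * (20 * b) + 1) * ((5 * (20 * b) + 1) * 2 ^ (4 * (20 * b) + 1))
      = 1 + (80 * b + 1) * (100 * b + 1) * 2 * 2 ^ (80 * b) := by rw [h2]; ring
    _ ≤ 2 ^ (80 * b) + (80 * b + 1) * (100 * b + 1) * 2 * 2 ^ (80 * b) := by omega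
    _ = (1 + (80 * b + 1) * (100 * b + 1) * 2) * 2 ^ (80 * b) := by ring
    _ ≤ (16363 * b ^ 2) * 2 ^ (80 * b) := by
        refine Nat.mul_le_mul_right _ ?_
        nlinarith
    _ ≤ 2 ^ b * 2 ^ (80 * b) := Nat.mul_le_mul_right _ h1
    _ = 2 ^ (b + 80 * b) := by rw [pow_add]

/-- Number of nodes. -/
theorem pW_le {m s : ℕ} (hm : 24 ≤ m) {LB : List ℕ} (hLB : LB.length ≤ 2 ^ (81 * m * 2 ^ s)) :
    pW ((2 ^ (20 * m)) ^ 2 ^ s) ((famMPW m).g s) LB ≤ 2 ^ (104 * m * 2 ^ s) := by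
  set b := m * 2 ^ s with hb
  have hb1 : 24 ≤ b := le_mul_two_pow hm
  unfold pW
  have e1 : (2 ^ (20 * m)) ^ 2 ^ s = 2 ^ (20 * b) := by rw [← pow_mul, hb]; ring_nf
  have e2 : (famMPW m).g s = 2 ^ (2 * b) := by
    show 2 ^ (2 * m * 2 ^ s) = _
    rw [hb]; ring_nf
  have e3 : 81 * m * 2 ^ s = 81 * b := by rw [hb]; ring
  have e4 : 104 * m * 2 ^ s = (22 * b + b) + 81 * b := by rw [hb]; ring
  rw [e3] at hLB
  rw [e1, e2, e4, pow_add]
  refine Nat.mul_le_mul ?_ hLB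
  have h1 : 2 ^ (20 * b) * 2 ^ (2 * b) = 2 ^ (22 * b) := by rw [← pow_add]; ring_nf
  have h2 : 1 ≤ 2 ^ (22 * b) := Nat.one_le_two_pow
  have h3 : 4 ≤ 2 ^ b := by
    calc 4 = 2 ^ 2 := by norm_num
      _ ≤ 2 ^ b := Nat.pow_le_pow_right (by norm_num) (by omega)
  calc 2 * 2 ^ (20 * b) * 2 ^ (2 * b) + 1 = 2 * 2 ^ (22 * b) + 1 := by rw [mul_assoc, h1]
    _ ≤ 4 * 2 ^ (22 * b) := by omega
    _ ≤ 2 ^ b * 2 ^ (22 * b) := Nat.mul_le_mul_right _ h3
    _ = 2 ^ (22 * b + b) := by rw [pow_add]; ring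

theorem size_pW_le {m s : ℕ} (hm : 24 ≤ m) {LB : List ℕ}
    (hLB : LB.length ≤ 2 ^ (81 * m * 2 ^ s)) :
    Nat.size (pW ((2 ^ (20 * m)) ^ 2 ^ s) ((famMPW m).g s) LB) ≤ 104 * m * 2 ^ s + 1 := by
  rw [Nat.size_le]
  refine lt_of_le_of_lt (pW_le hm hLB) ?_
  exact Nat.pow_lt_pow_right (by norm_num) (Nat.lt_succ_self _)

/-- **Start cost of a path**: at most `229 m 2 ^ s` times its weight. -/
theorem Phi0_fam_le {m s ca : ℕ} (hm : 24 ≤ m) {LB : List ℕ}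
    (hLB : LB.length ≤ 2 ^ (81 * m * 2 ^ s))
    (P : Fin ((2 ^ (20 * m)) ^ 2 ^ s + 2) →
      Fin (pW ((2 ^ (20 * m)) ^ 2 ^ s) ((famMPW m).g s) LB) ×
        Fin (pW ((2 ^ (20 * m)) ^ 2 ^ s) ((famMPW m).g s) LB)) :
    H519.Phi0 (aR ((2 ^ (20 * m)) ^ 2 ^ s) ((famMPW m).g s) (20 * m * 2 ^ s) ca LB)
        (bR ((2 ^ (20 * m)) ^ 2 ^ s) ((famMPW m).g s) (20 * m * 2 ^ s) ca LB) P ≤
      229 * (m * 2 ^ s : ℕ) *
        ∑ i, aR ((2 ^ (20 * m)) ^ 2 ^ s) ((famMPW m).g s) (20 * m * 2 ^ s) ca LB i (P i) := by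
  refine (Phi0_le _ _ _ _ _ P).trans ?_
  refine mul_le_mul_of_nonneg_right ?_ (Finset.sum_nonneg fun i _ => (aR_pos _ _ _ _ _ i _).le)
  have h1 := size_pW_le hm hLB
  have h2 := le_mul_two_pow (s := s) hm
  have h3 : 20 * m * 2 ^ s + 2 * Nat.size (pW ((2 ^ (20 * m)) ^ 2 ^ s) ((famMPW m).g s) LB) ≤
      229 * (m * 2 ^ s) := by nlinarith
  exact_mod_cast h3

/-! ### The error of the greedy picks -/

/-- Parameter of 519's error bound. -/
def sF (m s : ℕ) : ℕ := 2 ^ (240 * m * 2 ^ s)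

theorem sF_pos (m s : ℕ) : 0 < sF m s := by unfold sF; positivity

theorem sF_lt {m : ℕ} (hm : 24 ≤ m) (s : ℕ) : sF m s < (famMPW m).T s := by
  show 2 ^ (240 * m * 2 ^ s) < 2 ^ (270 * m * 2 ^ s)
  refine Nat.pow_lt_pow_right (by norm_num) ?_
  have := le_mul_two_pow (s := s) hm
  nlinarith

/-- Numerical core: `x = 2 ^ b`, `y = 1 / x`. -/
theorem err_core {b : ℕ} (hb : 24 ≤ b) {E : ℝ} (hE1 : 1 ≤ E) (hE : E ≤ 2 ^ (208 * b)) :
    (2 : ℝ) ^ (20 * b) * ((E * Real.log ((2 : ℝ) ^ (270 * b) + E) + 2 * E +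
        (E + 1) * (1 + Real.log ((2 : ℝ) ^ (270 * b)))) / 2 ^ (240 * b) +
        (2 ^ (240 * b) + E) / 2 ^ (270 * b) +
        2 ^ (240 * b) / (2 ^ (270 * b) - 2 ^ (240 * b))) +
      ((2 : ℝ) ^ (270 * b) / 2 ^ (240 * b) + 1) *
        (2 * (2 ^ (20 * b) * (1 / 2 ^ (70 * b) +
          (2 ^ (270 * b) + E) * 2 ^ (70 * b) / 2 ^ (400 * b)))) +
      3 * (2 ^ (20 * b) * (E / 2 ^ (270 * b))) ≤ (1 / 2) ^ (8 * b) := by
  set x : ℝ := 2 ^ b with hx
  set y : ℝ := (1 / 2) ^ b with hy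
  have hxy : x * y = 1 := by rw [hx, hy, ← mul_pow]; norm_num
  have hx0 : 0 < x := by positivity
  have hy0 : 0 < y := by positivity
  have hy1 : y ≤ 1 := pow_le_one₀ (by norm_num) (by norm_num)
  have hpw : ∀ k : ℕ, (2 : ℝ) ^ (k * b) = x ^ k := fun k => by
    rw [hx, ← pow_mul, Nat.mul_comm]
  have hyk : ∀ k : ℕ, x ^ k * y ^ k = 1 := fun k => by rw [← mul_pow, hxy, one_pow]
  have hinv : ∀ k : ℕ, (x ^ k)⁻¹ = y ^ k := fun k =>
    inv_eq_of_mul_eq_one_right (hyk k)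
  have h8 : ((1 : ℝ) / 2) ^ (8 * b) = y ^ 8 := by rw [hy, ← pow_mul, Nat.mul_comm]
  rw [hpw] at hE
  simp only [hpw]
  rw [h8]
  have hlin : 815 * (b : ℝ) * y ≤ 1 := by
    have h1 : (815 * (b : ℝ)) ≤ x := by
      have := lin_le_pow hb
      rw [hx]
      exact_mod_cast this
    calc 815 * (b : ℝ) * y ≤ x * y := mul_le_mul_of_nonneg_right h1 hy0.le
      _ = 1 := hxy
  have hb0 : (24 : ℝ) ≤ b := by exact_mod_cast hb
  have hE0 : 0 < E := by linarith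
  have hx1 : 1 ≤ x := one_le_pow₀ (by norm_num)
  have hx2 : (2 : ℝ) ≤ x := by
    rw [hx]
    calc (2 : ℝ) = 2 ^ 1 := by norm_num
      _ ≤ 2 ^ b := pow_le_pow_right₀ (by norm_num) (by omega)
  have hlog2 : Real.log 2 ≤ 1 := by
    have := Real.log_le_sub_one_of_pos (show (0 : ℝ) < 2 by norm_num)
    linarith
  have hlogx : Real.log x ≤ b := by
    rw [hx, Real.log_pow]
    nlinarith
  have hET : E ≤ x ^ 270 := hE.trans (pow_le_pow_right₀ hx1 (by norm_num))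
  -- logarithms
  have hl1 : Real.log (x ^ 270) ≤ 270 * b := by
    rw [Real.log_pow]; push_cast; nlinarith
  have hl2 : Real.log (x ^ 270 + E) ≤ 271 * b := by
    have h1 : x ^ 270 + E ≤ x ^ 271 := by
      calc x ^ 270 + E ≤ 2 * x ^ 270 := by linarith
        _ ≤ x * x ^ 270 := mul_le_mul_of_nonneg_right hx2 (by positivity)
        _ = x ^ 271 := by ring
    calc Real.log (x ^ 270 + E) ≤ Real.log (x ^ 271) := Real.log_le_log (by positivity) h1
      _ ≤ 271 * b := by rw [Real.log_pow]; push_cast; nlinarith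
  -- first term
  have hA1 : E * Real.log (x ^ 270 + E) + 2 * E + (E + 1) * (1 + Real.log (x ^ 270)) ≤
      x ^ 208 * (815 * b) := by
    have h1 : E * Real.log (x ^ 270 + E) ≤ E * (271 * b) := mul_le_mul_of_nonneg_left hl2 hE0.le
    have h2 : (E + 1) * (1 + Real.log (x ^ 270)) ≤ (2 * E) * (1 + 270 * b) := by
      refine mul_le_mul (by linarith) (by linarith) ?_ (by positivity)
      have : 0 ≤ Real.log (x ^ 270) := Real.log_nonneg (one_le_pow₀ hx1)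
      linarith
    have h3 : E * (271 * b) + 2 * E + (2 * E) * (1 + 270 * b) = E * (811 * b + 4) := by ring
    have h4 : E * (811 * (b : ℝ) + 4) ≤ E * (815 * b) :=
      mul_le_mul_of_nonneg_left (by linarith) hE0.le
    have h5 : E * (815 * (b : ℝ)) ≤ x ^ 208 * (815 * b) :=
      mul_le_mul_of_nonneg_right hE (by positivity)
    linarith
  have hA : x ^ 20 * ((E * Real.log (x ^ 270 + E) + 2 * E +
      (E + 1) * (1 + Real.log (x ^ 270))) / x ^ 240) ≤ y ^ 11 := by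
    have h1 : x ^ 20 * ((E * Real.log (x ^ 270 + E) + 2 * E +
        (E + 1) * (1 + Real.log (x ^ 270))) / x ^ 240) ≤
        x ^ 20 * (x ^ 208 * (815 * b) / x ^ 240) :=
      mul_le_mul_of_nonneg_left (div_le_div_of_nonneg_right hA1 (by positivity)) (by positivity)
    have h2 : x ^ 20 * (x ^ 208 * (815 * b) / x ^ 240) = (815 * b * y) * y ^ 11 := by
      rw [div_eq_mul_inv, hinv]
      have h3 : x ^ 228 * y ^ 228 = 1 := hyk 228
      calc x ^ 20 * (x ^ 208 * (815 * b) * y ^ 240)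
          = (x ^ 228 * y ^ 228) * ((815 * b * y) * y ^ 11) := by ring
        _ = _ := by rw [h3, one_mul]
    rw [h2] at h1
    refine h1.trans ?_
    calc (815 * b * y) * y ^ 11 ≤ 1 * y ^ 11 :=
          mul_le_mul_of_nonneg_right hlin (by positivity)
      _ = y ^ 11 := one_mul _
  have hB : x ^ 20 * ((x ^ 240 + E) / x ^ 270) ≤ 2 * y ^ 10 := by
    have h1 : E ≤ x ^ 240 := hE.trans (pow_le_pow_right₀ hx1 (by norm_num))
    have h2 : x ^ 20 * ((x ^ 240 + E) / x ^ 270) ≤ x ^ 20 * ((2 * x ^ 240) / x ^ 270) :=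
      mul_le_mul_of_nonneg_left (div_le_div_of_nonneg_right (by linarith) (by positivity))
        (by positivity)
    have h3 : x ^ 20 * ((2 * x ^ 240) / x ^ 270) = (x ^ 260 * y ^ 260) * (2 * y ^ 10) := by
      rw [div_eq_mul_inv, hinv]; ring
    rw [h3, hyk, one_mul] at h2
    exact h2
  have hC : x ^ 20 * (x ^ 240 / (x ^ 270 - x ^ 240)) ≤ 2 * y ^ 10 := by
    have h1 : x ^ 270 / 2 ≤ x ^ 270 - x ^ 240 := by
      have : 2 * x ^ 240 ≤ x ^ 270 := by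
        calc 2 * x ^ 240 ≤ x * x ^ 240 := mul_le_mul_of_nonneg_right hx2 (by positivity)
          _ = x ^ 241 := by ring
          _ ≤ x ^ 270 := pow_le_pow_right₀ hx1 (by norm_num)
      linarith
    have h2 : x ^ 240 / (x ^ 270 - x ^ 240) ≤ x ^ 240 / (x ^ 270 / 2) :=
      div_le_div_of_nonneg_left (by positivity) (by positivity) h1
    have h3 : x ^ 20 * (x ^ 240 / (x ^ 270 / 2)) = (x ^ 260 * y ^ 260) * (2 * y ^ 10) := by
      rw [div_div_eq_mul_div, div_eq_mul_inv, hinv]; ring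
    have h4 := mul_le_mul_of_nonneg_left h2 (show 0 ≤ x ^ 20 by positivity)
    rw [h3, hyk, one_mul] at h4
    exact h4
  have hD : (x ^ 270 / x ^ 240 + 1) * (2 * (x ^ 20 * (1 / x ^ 70 +
      (x ^ 270 + E) * x ^ 70 / x ^ 400))) ≤ 12 * y ^ 10 := by
    have h1 : x ^ 270 / x ^ 240 + 1 ≤ 2 * x ^ 30 := by
      have h2 : x ^ 270 / x ^ 240 = x ^ 30 := by
        rw [div_eq_iff (by positivity)]; ring
      have h3 : 1 ≤ x ^ 30 := one_le_pow₀ hx1
      rw [h2]; linarith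
    have h2 : 1 / x ^ 70 + (x ^ 270 + E) * x ^ 70 / x ^ 400 ≤ 3 * y ^ 60 := by
      have h3 : 1 / x ^ 70 ≤ y ^ 60 := by
        rw [one_div, hinv]
        exact pow_le_pow_of_le_one hy0.le hy1 (by norm_num)
      have h4 : (x ^ 270 + E) * x ^ 70 / x ^ 400 ≤ 2 * y ^ 60 := by
        have h5 : (x ^ 270 + E) * x ^ 70 / x ^ 400 ≤ (2 * x ^ 270) * x ^ 70 / x ^ 400 :=
          div_le_div_of_nonneg_right
            (mul_le_mul_of_nonneg_right (by linarith) (by positivity)) (by positivity)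
        have h6 : (2 * x ^ 270) * x ^ 70 / x ^ 400 = (x ^ 340 * y ^ 340) * (2 * y ^ 60) := by
          rw [div_eq_mul_inv, hinv]; ring
        rw [h6, hyk, one_mul] at h5
        exact h5
      linarith
    calc (x ^ 270 / x ^ 240 + 1) * (2 * (x ^ 20 * (1 / x ^ 70 +
          (x ^ 270 + E) * x ^ 70 / x ^ 400)))
        ≤ (2 * x ^ 30) * (2 * (x ^ 20 * (3 * y ^ 60))) := by
          refine mul_le_mul h1 ?_ (by positivity) (by positivity)
          exact mul_le_mul_of_nonneg_left (mul_le_mul_of_nonneg_left h2 (by positivity))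
            (by norm_num)
      _ = (x ^ 50 * y ^ 50) * (12 * y ^ 10) := by ring
      _ = 12 * y ^ 10 := by rw [hyk, one_mul]
  have hF : 3 * (x ^ 20 * (E / x ^ 270)) ≤ 3 * y ^ 10 := by
    have h1 : x ^ 20 * (E / x ^ 270) ≤ x ^ 20 * (x ^ 208 / x ^ 270) :=
      mul_le_mul_of_nonneg_left (div_le_div_of_nonneg_right hE (by positivity)) (by positivity)
    have h2 : x ^ 20 * (x ^ 208 / x ^ 270) = (x ^ 228 * y ^ 228) * y ^ 42 := by
      rw [div_eq_mul_inv, hinv]; ring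
    rw [h2, hyk, one_mul] at h1
    have h3 : y ^ 42 ≤ y ^ 10 := pow_le_pow_of_le_one hy0.le hy1 (by norm_num)
    linarith
  have hy11 : y ^ 11 ≤ y ^ 10 := pow_le_pow_of_le_one hy0.le hy1 (by norm_num)
  have hfin : 20 * y ^ 10 ≤ y ^ 8 := by
    have h1 : 20 * y ^ 2 ≤ 1 := by
      have h2 : y ≤ 1 / 20 := by
        have h3 : 815 * (b : ℝ) * y ≤ 1 := hlin
        have h4 : 20 * y ≤ 815 * (b : ℝ) * y := mul_le_mul_of_nonneg_right (by linarith) hy0.le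
        linarith
      nlinarith
    calc 20 * y ^ 10 = (20 * y ^ 2) * y ^ 8 := by ring
      _ ≤ 1 * y ^ 8 := mul_le_mul_of_nonneg_right h1 (by positivity)
      _ = y ^ 8 := one_mul _
  rw [mul_add, mul_add]
  linarith

/-- **Error of a block** (519's bound) for the numbers of the family. -/
theorem block_err_le {m s : ℕ} (hm : 24 ≤ m) {p : ℕ} (hp1 : 1 ≤ p)
    (hp : p ≤ 2 ^ (104 * m * 2 ^ s)) :
    ((2 ^ (20 * m * 2 ^ s) : ℕ) : ℝ) *
        errW (Fintype.card (Fin p × Fin p)) ((famMPW m).T s) (sF m s) +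
      (((famMPW m).T s : ℝ) / (sF m s : ℝ) + 1) *
        etaW (20 * m * 2 ^ s) ((famMPW m).T s) ((famMPW m).Sh s) ((famMPW m).Rh s) p +
      3 * (((2 ^ (20 * m * 2 ^ s) : ℕ) : ℝ) *
        ((Fintype.card (Fin p × Fin p) : ℝ) / ((famMPW m).T s : ℝ))) ≤
      (1 / 2) ^ (8 * (m * 2 ^ s)) := by
  have hb := le_mul_two_pow (s := s) hm
  have hcard : (Fintype.card (Fin p × Fin p) : ℝ) = (p : ℝ) * p := by
    rw [Fintype.card_prod, Fintype.card_fin]; push_cast; ring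
  have hE1 : (1 : ℝ) ≤ (p : ℝ) * p := by
    have : (1 : ℝ) ≤ p := by exact_mod_cast hp1
    nlinarith
  have e104 : 104 * m * 2 ^ s = 104 * (m * 2 ^ s) := by ring
  have hE : (p : ℝ) * p ≤ 2 ^ (208 * (m * 2 ^ s)) := by
    have h1 : p * p ≤ 2 ^ (104 * (m * 2 ^ s)) * 2 ^ (104 * (m * 2 ^ s)) :=
      Nat.mul_le_mul (e104 ▸ hp) (e104 ▸ hp)
    rw [← pow_add, show 104 * (m * 2 ^ s) + 104 * (m * 2 ^ s) = 208 * (m * 2 ^ s) by ring] at h1
    exact_mod_cast h1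
  have hT : ((famMPW m).T s : ℝ) = 2 ^ (270 * (m * 2 ^ s)) := by
    show ((2 ^ (270 * m * 2 ^ s) : ℕ) : ℝ) = _
    push_cast; rw [show 270 * m * 2 ^ s = 270 * (m * 2 ^ s) by ring]
  have hs : (sF m s : ℝ) = 2 ^ (240 * (m * 2 ^ s)) := by
    unfold sF
    push_cast; rw [show 240 * m * 2 ^ s = 240 * (m * 2 ^ s) by ring]
  have hSh : ((famMPW m).Sh s : ℝ) = 2 ^ (400 * (m * 2 ^ s)) := by
    show ((2 ^ (400 * m * 2 ^ s) : ℕ) : ℝ) = _
    push_cast; rw [show 400 * m * 2 ^ s = 400 * (m * 2 ^ s) by ring]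
  have hRh : ((famMPW m).Rh s : ℝ) = 2 ^ (70 * (m * 2 ^ s)) := by
    show ((2 ^ (70 * m * 2 ^ s) : ℕ) : ℝ) = _
    push_cast; rw [show 70 * m * 2 ^ s = 70 * (m * 2 ^ s) by ring]
  have hAm : ((2 ^ (20 * m * 2 ^ s) : ℕ) : ℝ) = 2 ^ (20 * (m * 2 ^ s)) := by
    push_cast; rw [show 20 * m * 2 ^ s = 20 * (m * 2 ^ s) by ring]
  unfold errW etaW
  rw [hcard, hT, hs, hSh, hRh, hAm]
  exact err_core hb hE1 hE

theorem log_card_le {m s : ℕ} {p : ℕ} (hp1 : 1 ≤ p) (hp : p ≤ 2 ^ (104 * m * 2 ^ s)) :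
    Real.log (Fintype.card (Fin p × Fin p)) ≤ 208 * (m * 2 ^ s : ℕ) := by
  rw [Fintype.card_prod, Fintype.card_fin]
  have hp' : (p : ℝ) ≤ 2 ^ (104 * m * 2 ^ s) := by exact_mod_cast hp
  have hp0 : (0 : ℝ) < p := by exact_mod_cast hp1
  have hlog2 : Real.log 2 ≤ 1 := by
    have := Real.log_le_sub_one_of_pos (show (0 : ℝ) < 2 by norm_num)
    linarith
  have h1 : Real.log p ≤ 104 * (m * 2 ^ s : ℕ) := by
    calc Real.log p ≤ Real.log (2 ^ (104 * m * 2 ^ s)) := Real.log_le_log hp0 hp'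
      _ = ((104 * m * 2 ^ s : ℕ) : ℝ) * Real.log 2 := Real.log_pow _ _
      _ ≤ ((104 * m * 2 ^ s : ℕ) : ℝ) * 1 :=
          mul_le_mul_of_nonneg_left hlog2 (Nat.cast_nonneg _)
      _ = 104 * (m * 2 ^ s : ℕ) := by push_cast; ring
  push_cast at h1 ⊢
  rw [Real.log_mul hp0.ne' hp0.ne']
  linarith

end Vale.Agent.P315.H155
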