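import Vale.Agent.P315.H801.LaneSpec
import Vale.Agent.P315.H763.SolverW

/-!
P315, milestone 2 (helper155): the lane of a start-block machine with edge weights.

Same as `H801.Lane`, with a table `A` of weights and a table `C` of constant prices. The truncation
of an edge is `cap * A`, the linear cost has the extra term `C`, and the paths are picked by the
weighted solver `picksW`. The schedule (`past`, `W`, classes) is the one of `H801`.
-/

set_option autoImplicit false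

namespace Vale.Agent.P315.H155

open Vale.Agent.Lib.PolyTime Vale.Agent.P315.H763 Vale.Agent.P315.H801

/-- Linear cost of the edge `(u, v)` in row `m`. -/
def linW (S cap h : ℕ) (A C : Tab) (hist : List Tab) (κ : ℕ) (ps : List ℕ) (m u v : ℕ) : ℕ :=
  S * (2 * ent3 (tabAt hist κ) m u v + (ps.map fun κ' => 2 * ent3 (tabAt hist κ') m u v -
    min (ent3 (tabAt hist κ') m u v - ent3 (tabAt hist (κ' + h)) m u v)
      (cap * ent3 A m u v)).sum) + ent3 C m u v

/-- Table of the linear costs. -/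
def linWT (S cap h : ℕ) (A C : Tab) (hist : List Tab) (κ : ℕ) (ps : List ℕ) : Tab :=
  (List.range (tabAt hist κ).length).map fun m => (List.range (nn (tabAt hist κ))).map fun u =>
    (List.range (nn (tabAt hist κ))).map fun v => linW S cap h A C hist κ ps m u v

/-- The stored paths of the machine in round `κ`. -/
def pathsW (S R Am cap T a b h Dl o c0 c1 r : ℕ) (A C : Tab) (hist : List Tab) (κ : ℕ) :
    List (List ℕ) :=
  picksW S cap R Am a b T (linWT S cap h A C hist κ (past a b h Dl o c0 c1 r hist κ)) A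

/-- The lane: the nodes of the path with number `coin % T`. -/
def laneW (S R Am cap T a b h Dl o c0 c1 r coin : ℕ) (A C : Tab) (hist : List Tab) (κ : ℕ) :
    List ℕ :=
  (pathsW S R Am cap T a b h Dl o c0 c1 r A C hist κ).getD (coin % T) []

/-! ### Polynomial time -/

section PT

variable {α : Type*} [Enc α]

@[fun_prop]
theorem PT_picksW {S Q R Am s t T : α → ℕ} {Li W : α → Tab} (hS : PT ∅ S) (hQ : PT ∅ Q)
    (hR : PT ∅ R) (hRb : PBd R) (hAm : PT ∅ Am) (hs : PT ∅ s) (ht : PT ∅ t) (hT : PT ∅ T)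
    (hTb : PBd T) (hL : PT ∅ Li) (hW : PT ∅ W) :
    PT ∅ (fun a => picksW (S a) (Q a) (R a) (Am a) (s a) (t a) (T a) (Li a) (W a)) :=
  pt_picksW hS hQ hR hRb hAm hs ht hT hTb hL hW

@[fun_prop]
theorem PT_linW {S cap h κ m u v : α → ℕ} {A C : α → Tab} {hist : α → List Tab}
    {ps : α → List ℕ} (hS : PT ∅ S) (hc : PT ∅ cap) (h0 : PT ∅ h) (hA : PT ∅ A) (hC : PT ∅ C)
    (hh : PT ∅ hist) (hκ : PT ∅ κ) (hp : PT ∅ ps) (hm : PT ∅ m) (hu : PT ∅ u) (hv : PT ∅ v) :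
    PT ∅ (fun x => linW (S x) (cap x) (h x) (A x) (C x) (hist x) (κ x) (ps x) (m x) (u x)
      (v x)) := by
  unfold linW; fun_prop

@[fun_prop]
theorem PT_linWT {S cap h κ : α → ℕ} {A C : α → Tab} {hist : α → List Tab} {ps : α → List ℕ}
    (hS : PT ∅ S) (hc : PT ∅ cap) (h0 : PT ∅ h) (hA : PT ∅ A) (hC : PT ∅ C)
    (hh : PT ∅ hist) (hκ : PT ∅ κ) (hp : PT ∅ ps) :
    PT ∅ (fun x => linWT (S x) (cap x) (h x) (A x) (C x) (hist x) (κ x) (ps x)) := by
  unfold linWT; fun_prop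

@[fun_prop]
theorem PT_pathsW {S R Am cap T a b h Dl o c0 c1 r κ : α → ℕ} {A C : α → Tab}
    {hist : α → List Tab} (hS : PT ∅ S) (hR : PT ∅ R) (hRb : PBd R) (hAm : PT ∅ Am)
    (hc : PT ∅ cap) (hT : PT ∅ T) (hTb : PBd T) (ha : PT ∅ a) (hb : PT ∅ b)
    (h0 : PT ∅ h) (h1 : PT ∅ Dl) (h2 : PT ∅ o) (h2b : PBd o) (h3 : PT ∅ c0) (h4 : PT ∅ c1)
    (h5 : PT ∅ r) (hA : PT ∅ A) (hC : PT ∅ C) (hh : PT ∅ hist) (hκ : PT ∅ κ) (hκb : PBd κ) :
    PT ∅ (fun x => pathsW (S x) (R x) (Am x) (cap x) (T x) (a x) (b x) (h x) (Dl x) (o x) (c0 x)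
      (c1 x) (r x) (A x) (C x) (hist x) (κ x)) := by
  unfold pathsW; fun_prop

@[fun_prop]
theorem PT_laneW {S R Am cap T a b h Dl o c0 c1 r coin κ : α → ℕ} {A C : α → Tab}
    {hist : α → List Tab} (hS : PT ∅ S) (hR : PT ∅ R) (hRb : PBd R) (hAm : PT ∅ Am)
    (hc : PT ∅ cap) (hT : PT ∅ T) (hTb : PBd T) (ha : PT ∅ a) (hb : PT ∅ b)
    (h0 : PT ∅ h) (h1 : PT ∅ Dl) (h2 : PT ∅ o) (h2b : PBd o) (h3 : PT ∅ c0) (h4 : PT ∅ c1)
    (h5 : PT ∅ r) (h6 : PT ∅ coin) (hA : PT ∅ A) (hC : PT ∅ C) (hh : PT ∅ hist) (hκ : PT ∅ κ)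
    (hκb : PBd κ) :
    PT ∅ (fun x => laneW (S x) (R x) (Am x) (cap x) (T x) (a x) (b x) (h x) (Dl x) (o x) (c0 x)
      (c1 x) (r x) (coin x) (A x) (C x) (hist x) (κ x)) := by
  unfold laneW; fun_prop

end PT

/-! ### Specification -/

/-- Truncated decrease with weights. -/
noncomputable def wclW {K p : ℕ} (cap : ℝ) (w : ℕ → ℕ → ℕ → ℕ) (D D' : Fin K → Fin p × Fin p → ℝ)
    (i : Fin K) (e : Fin p × Fin p) : ℝ :=
  min (D i e - D' i e) (cap * (w i e.1 e.2 : ℝ))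

/-- The real linear costs of the instance with start block `j1`. -/
noncomputable def LstW {K p : ℕ} (D : ℕ → Fin K → Fin p × Fin p → ℝ) (w : ℕ → ℕ → ℕ → ℕ)
    (cap : ℝ) (o len h : ℕ) (act : ℕ → Prop) [DecidablePred act] (j1 t : ℕ)
    (i : Fin K) (e : Fin p × Fin p) : ℝ :=
  cap⁻¹ * (2 * (∑ k ∈ H519.hist o len h act j1 t, D k i e + D t i e) -
    ∑ k ∈ H519.hist o len h act j1 t, wclW cap w (D k) (D (k + h)) i e)

theorem linW_cast {K p S cap h t : ℕ} {D : ℕ → ℕ → ℕ → ℕ → ℕ} {w c : ℕ → ℕ → ℕ → ℕ}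
    (hD : ∀ t m u v, D (t + 1) m u v ≤ D t m u v) {ps : List ℕ} (hps : ps.Nodup)
    (hle : ∀ x ∈ ps, x + h ≤ t) (i : Fin K) (e : Fin p × Fin p) :
    (linW S cap h (tabOf K p w) (tabOf K p c) (histOf K p D t) t ps i e.1 e.2 : ℝ) =
      S * (2 * (∑ k ∈ ps.toFinset, Dr K p D k i e + Dr K p D t i e) -
        ∑ k ∈ ps.toFinset, wclW (cap : ℝ) w (Dr K p D k) (Dr K p D (k + h)) i e) +
      c i e.1 e.2 := by
  have h1 : linW S cap h (tabOf K p w) (tabOf K p c) (histOf K p D t) t ps i e.1 e.2 =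
      S * (2 * D t i e.1 e.2 +
      ∑ k ∈ ps.toFinset, (2 * D k i e.1 e.2 - min (D k i e.1 e.2 - D (k + h) i e.1 e.2)
        (cap * w i e.1 e.2))) + c i e.1 e.2 := by
    unfold linW
    rw [List.sum_toFinset _ hps, tabAt_histOf D le_rfl, ent3_tabOf _ i.2 e.1.2 e.2.2,
      ent3_tabOf w i.2 e.1.2 e.2.2, ent3_tabOf c i.2 e.1.2 e.2.2]
    congr 4
    refine List.map_congr_left fun k hk => ?_
    have := hle k hk
    rw [tabAt_histOf D (by omega), tabAt_histOf D this, ent3_tabOf _ i.2 e.1.2 e.2.2,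
      ent3_tabOf _ i.2 e.1.2 e.2.2]
  rw [h1]
  push_cast
  have h2 : ∀ k ∈ ps.toFinset,
      ((2 * D k i e.1 e.2 - min (D k i e.1 e.2 - D (k + h) i e.1 e.2)
        (cap * w i e.1 e.2) : ℕ) : ℝ) =
      2 * Dr K p D k i e - wclW (cap : ℝ) w (Dr K p D k) (Dr K p D (k + h)) i e := by
    intro k _
    have h3 := anti_add hD k i e.1 e.2 h
    rw [Nat.cast_sub (by omega), Nat.cast_min, Nat.cast_sub h3]
    push_cast
    rfl
  rw [Finset.sum_congr rfl h2, Finset.sum_sub_distrib, ← Finset.mul_sum]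
  unfold Dr
  ring

theorem linWT_histOf {K p S cap h t : ℕ} (hK : 0 < K) (A C : Tab) (D : ℕ → ℕ → ℕ → ℕ → ℕ)
    (ps : List ℕ) :
    linWT S cap h A C (histOf K p D t) t ps =
      tabOf K p fun m u v => linW S cap h A C (histOf K p D t) t ps m u v := by
  unfold linWT
  rw [tabAt_histOf D le_rfl, tabOf_length, nn_tabOf hK]
  rfl

theorem picksW_greedyW' {S Q R Am : ℕ} (hS : 0 < S) (hQ : 0 < Q) (hR : 0 < R) (s t T : ℕ)
    (Li : Tab) {K p : ℕ} (w : ℕ → ℕ → ℕ → ℕ) (hK : Li.length = K) (hp : nn Li = p) (hK0 : 0 < K)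
    (hs : s < p) (ht : t < p) (hp0 : 0 < p)
    (hw : ∀ i < K, ∀ u < p, ∀ v < p, w i u v ≤ Am) :
    GreedyW (fun (i : Fin K) (e : Fin p × Fin p) => (w i e.1 e.2 : ℝ))
      (fun (i : Fin K) (e : Fin p × Fin p) => ((ent3 Li i e.1 e.2 : ℕ) : ℝ) / (S * Q))
      (H763.paths K p s t) T (2 * (K * (Am * (1 / R + (T + p * p) * R / S))))
      (fun j => edge K p hp0 ((picksW S Q R Am s t T Li (tabOf K p w)).getD j [])) := by
  subst hK
  subst hp
  have hL : Li ≠ [] := List.length_pos_iff.1 hK0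
  have h := picksW_greedyW hS hQ hR s t T Li (tabOf Li.length (nn Li) w) hL hs ht
    (fun i hi u hu v hv => by rw [ent3_tabOf w hi hu hv]; exact hw i hi u hu v hv)
  have ha : (fun (i : Fin Li.length) (e : Fin (nn Li) × Fin (nn Li)) =>
      (ent3 (tabOf Li.length (nn Li) w) i e.1 e.2 : ℝ)) =
      fun (i : Fin Li.length) (e : Fin (nn Li) × Fin (nn Li)) => (w i e.1 e.2 : ℝ) := by
    funext i e
    rw [ent3_tabOf w i.2 e.1.2 e.2.2]
  rw [ha] at h
  exact h

/-- **The stored paths of the instance with start block `j1` are near-greedy for the weighted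
costs.** -/
theorem pathsW_greedyW {K p S R Am cap T a b h Dl o c0 c1 t j1 : ℕ} {D : ℕ → ℕ → ℕ → ℕ → ℕ}
    {w c : ℕ → ℕ → ℕ → ℕ}
    (hD : ∀ t m u v, D (t + 1) m u v ≤ D t m u v) (hS : 0 < S) (hR : 0 < R) (hcap : 0 < cap)
    (hK : 0 < K) (ha : a < p) (hb : b < p) (hp0 : 0 < p) (hh : 0 < h) (hDl : 0 < Dl)
    (hw : ∀ i < K, ∀ u < p, ∀ v < p, w i u v ≤ Am) (hj : j1 ≤ blk Dl o t) :
    GreedyW (fun (i : Fin K) (e : Fin p × Fin p) => (w i e.1 e.2 : ℝ))
      (fun i e => LstW (Dr K p D) w cap o Dl h (actD K p a b Dl o c0 c1 D) j1 t i e +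
        (c i e.1 e.2 : ℝ) / (S * cap))
      (H763.paths K p a b) T (2 * (K * (Am * (1 / R + (T + p * p) * R / S))))
      (fun n => edge K p hp0 ((pathsW S R Am cap T a b h Dl o c0 c1
        (rk (actD K p a b Dl o c0 c1 D) j1) (tabOf K p w) (tabOf K p c)
        (histOf K p D t) t).getD n [])) := by
  set ps := past a b h Dl o c0 c1 (rk (actD K p a b Dl o c0 c1 D) j1) (histOf K p D t) t with hps
  have hspec : ps.toFinset = H519.hist o Dl h (actD K p a b Dl o c0 c1 D) j1 t :=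
    past_spec D hh hDl hj
  have hnd : ps.Nodup := past_nodup _ _ _ _ _ _ _ _ _ _
  have hle : ∀ x ∈ ps, x + h ≤ t := fun x hx =>
    add_h_le (act := actD K p a b Dl o c0 c1 D) hh (by rw [← hspec]; exact List.mem_toFinset.2 hx)
  have hg := picksW_greedyW' hS hcap hR a b T
    (linWT S cap h (tabOf K p w) (tabOf K p c) (histOf K p D t) t ps)
    (K := K) (p := p) w (by rw [linWT_histOf hK]; exact tabOf_length _ _ _)
    (by rw [linWT_histOf hK]; exact nn_tabOf hK _) hK ha hb hp0 hw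
  have hS' : (S : ℝ) ≠ 0 := by exact_mod_cast hS.ne'
  have hc' : (cap : ℝ) ≠ 0 := by exact_mod_cast hcap.ne'
  have hL : (fun (i : Fin K) (e : Fin p × Fin p) =>
      ((ent3 (linWT S cap h (tabOf K p w) (tabOf K p c) (histOf K p D t) t ps)
        i e.1 e.2 : ℕ) : ℝ) / (S * cap)) =
      fun i e => LstW (Dr K p D) w cap o Dl h (actD K p a b Dl o c0 c1 D) j1 t i e +
        (c i e.1 e.2 : ℝ) / (S * cap) := by
    funext i e
    rw [linWT_histOf hK, ent3_tabOf _ i.2 e.1.2 e.2.2, linW_cast hD hnd hle i e, hspec]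
    unfold LstW
    field_simp
  rw [hL] at hg
  exact hg

end Vale.Agent.P315.H155
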