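import Vale.Agent.P315.H155.M2St
import Vale.Agent.P315.Q.CellM

/-!
P315, milestone 2 (helper155): the strategy with the queries and cells of `Q/CellM.lean`:
conditions of the run, sizes, output.
-/

set_option autoImplicit false

namespace Vale.Agent.P315.H155

open Vale.Agent.Lib.PolyTime Vale.Agent.P315.C Vale.Agent.P315.H95 Vale.Agent.P315.RAM
  Vale.Agent.P315.Q Vale.Agent.P315.H207

/-! ### The labels of the read cells -/

theorem rootL_valid {θ : Type} [Enc θ] {St : TStrat θ} {F : θ} {S : H207.Strat (List ℕ)}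
    {V : ℕ → ℕ → Prop} {pos : ℕ → Prop} (hL : Link St F S V pos) (hV : V (St.n F) (St.a0 F))
    (h : ℕ × ℕ → List ℕ) : ∀ c ∈ rootL St F S h, V 0 c.2 := by
  intro c hc
  have hM := hL.hM
  exact (Strat.RN_cells hL.loc (St.n F) V hL.vkids
    (fun j s a m h1 h2 h3 h4 h5 x hx => by
      obtain ⟨h6, h7⟩ := Strat.mem_scales.1 h3
      exact hL.vlabs j s a m h1 h2 (by rw [← hL.hS]; exact h6) h7 h4 (by rw [← hM]; exact h5) x hx)
    (St.U F)
    (fun s q κ j a D coin m h1 h2 h3 h4 h5 h6 h7 => by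
      obtain ⟨h8, h9⟩ := Strat.mem_scales.1 h3
      exact hL.vlane s q κ j a D coin m (by rw [← hL.hS]; exact h8) h1 h2 h9 h4 h5 h6
        (by rw [← hM]; exact h7))
    h (St.n F) le_rfl 0 (St.a0 F) (St.Nr F) (by have := hL.uN; omega) hV c hc).1

/-- The labels of the read set of the root are valid. -/
theorem rootR_valid {St : TStrat (List ℕ)} {F : List ℕ} {S : H207.Strat (List ℕ)}
    {V : ℕ → ℕ → Prop} {pos : ℕ → Prop} {vis hid : Leaf} {h : ℕ × ℕ → List ℕ}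
    (hL : Link St F S V pos) (hF : S.Faithful pos V vis hid h) (hV : V (St.n F) (St.a0 F)) :
    ∀ c ∈ rootR St F S vis hid, V 0 c.2 := by
  intro c hc
  rw [← rootL_toFinset (St := St) (F := F) hF hV, List.mem_toFinset] at hc
  exact rootL_valid hL hV h c hc

/-! ### Queries and cells -/

/-- The queries of the strategy are those of `Q/CellM.lean`; `K` rows, classes at most `κ`. -/
structure Cells (X : MStrat) (Ts : TStrat (List ℕ)) (F : List ℕ) (xx yy : ℕ → ℕ)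
    (K U ℓ μ w0 c0 D' κ : ℕ) (R : Finset (ℕ × ℕ)) : Prop where
  μ0 : 0 < μ
  K0 : 0 < K
  ev : ℓ = 2 * (ℓ / 2)
  next : X.next = nextOf Ts
  Dc : X.D = Ts.Dc
  rows : Ts.M F ^ Ts.n F = K
  w : X.w F = ℓ / μ + 1
  ns : ∀ cur, X.ns (F, cur) = nsM U μ w0 (Ts.Dc F) cur
  sub : ∀ cur r, X.sub (F, cur, r) = subM U ℓ μ w0 c0 D' (Ts.Dc F) cur r
  lab : Ts.Lab F ≤ Ts.Dc F
  hcl : ∀ c ∈ R, cl c.2 ≤ κ
  hD : K * ℓ < D' * μ
  res : LoopRes Ts F R (fun c => cellR xx yy ℓ μ w0 c0 c.1 c.2)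
    (ansV X.ns X.sub (H817.stAns xx yy ℓ μ (ℓ / μ) D') F)

/-- Largest number of queries of a cell. -/
def nsK (μ w0 κ : ℕ) : ℕ := 2 * (2 ^ κ * w0) / μ + 1

theorem nsK_eq {μ w0 κ : ℕ} (h : μ ∣ w0) : nsK μ w0 κ = 2 ^ (κ + 1) * (w0 / μ) + 1 := by
  unfold nsK
  rw [show 2 * (2 ^ κ * w0) = 2 ^ (κ + 1) * w0 by ring, Nat.mul_div_assoc _ h]

theorem nsM_le {U μ w0 Dc cur κ : ℕ} (h : cl ((cur - 1) % Dc) ≤ κ) :
    nsM U μ w0 Dc cur ≤ nsK μ w0 κ := by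
  unfold nsM nsK
  refine Nat.succ_le_succ (Nat.div_le_div_right (Nat.mul_le_mul_left _ (Nat.mul_le_mul_right _ ?_)))
  exact Nat.pow_le_pow_right (by norm_num) ((min_le_left _ _).trans h)

section

variable {X : MStrat} {Ts : TStrat (List ℕ)} {F : List ℕ} {xx yy : ℕ → ℕ}
  {K U ℓ μ w0 c0 D' κ : ℕ} {R : Finset (ℕ × ℕ)} (h : Cells X Ts F xx yy K U ℓ μ w0 c0 D' κ R)
include h

theorem Cells.cur_eq (k : ℕ) :
    X.cur F (H817.stAns xx yy ℓ μ (ℓ / μ) D') k =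
      nextOf Ts (F, knownT Ts F (ansV X.ns X.sub (H817.stAns xx yy ℓ μ (ℓ / μ) D') F) k) := by
  unfold MStrat.cur curM knownT
  rw [h.next, h.Dc]

theorem Cells.cur_le (k : ℕ) :
    X.cur F (H817.stAns xx yy ℓ μ (ℓ / μ) D') k ≤ K * Ts.Dc F := by
  rw [h.cur_eq, ← h.rows]
  exact h.res.lt k

theorem Cells.cl_cur (k : ℕ) :
    cl ((X.cur F (H817.stAns xx yy ℓ μ (ℓ / μ) D') k - 1) % Ts.Dc F) ≤ κ := by
  rw [h.cur_eq]
  rcases h.res.code k with h0 | ⟨c, hc, h1⟩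
  · rw [h0]
    have h2 : cl ((0 - 1) % Ts.Dc F) = 0 := by
      rw [Nat.zero_sub, Nat.zero_mod]
      rfl
    rw [h2]
    exact Nat.zero_le _
  · rw [h1, Nat.add_sub_cancel]
    have h2 : c.2 < Ts.Dc F := (h.res.row c hc).2.trans_le h.lab
    rw [Nat.add_comm, Nat.add_mul_mod_self_right, Nat.mod_eq_of_lt h2]
    exact h.hcl c hc

theorem Cells.row_cur (k : ℕ) :
    (X.cur F (H817.stAns xx yy ℓ μ (ℓ / μ) D') k - 1) / Ts.Dc F < K := by
  have h1 := h.cur_le k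
  rcases Nat.eq_zero_or_pos (Ts.Dc F) with h0 | h0
  · rw [h0, Nat.div_zero]; exact h.K0
  rw [Nat.div_lt_iff_lt_mul h0]
  have : 0 < K * Ts.Dc F := Nat.mul_pos h.K0 h0
  omega

/-- The conditions on the queries. -/
theorem Cells.ok {b : ℕ} (hb : ℓ < 2 ^ b) :
    X.Ok F (H817.stAns xx yy ℓ μ (ℓ / μ) D') (K * D') (nsK μ w0 κ * (ℓ / μ + 1)) b where
  w_pos := by rw [h.w]; exact Nat.succ_pos _
  ns_pos := fun q => by rw [h.ns]; exact nsM_pos _ _ _ _ _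
  len := fun k r _ => by rw [H817.length_stAns, h.w]
  ask := fun k r _ => by
    rw [h.sub]
    exact subM_lt h.μ0 h.ev (h.row_cur k) h.hD
  ns_le := fun k => by
    rw [h.ns, h.w]
    exact Nat.mul_le_mul_right _ (nsM_le (h.cl_cur k))
  ns_zero := by
    rw [h.ns, h.w]
    refine Nat.mul_le_mul_right _ (nsM_le ?_)
    have h2 : cl ((0 - 1) % Ts.Dc F) = 0 := by
      rw [Nat.zero_sub, Nat.zero_mod]
      rfl
    rw [h2]
    exact Nat.zero_le _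
  val := fun k r _ v hv => by
    refine Lib.PolyTime.esize_nat_le ?_
    exact (H817.stAns_le xx yy (Nat.div_mul_le_self ℓ μ) hv).trans_lt hb

/-- **The run of the strategy.** -/
theorem Cells.runOk {b Q V : ℕ} (hb : ℓ < 2 ^ b) (hFb : ∀ v ∈ F, v < 2 ^ b)
    (hout : X.strat.fin (H817.stAns xx yy ℓ μ (ℓ / μ) D') Q F ≤ V) :
    X.strat.RunOk (H817.stAns xx yy ℓ μ (ℓ / μ) D') Q F
      (mSz (F.length * (2 * b + 1)) (K * Ts.Dc F) (3 * (K * Ts.Dc F) + 1)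
        (nsK μ w0 κ * (ℓ / μ + 1)) b Q) (K * D') V := by
  have hf : esize F ≤ F.length * (2 * b + 1) :=
    esize_list_le fun v hv => Lib.PolyTime.esize_nat_le (hFb v hv)
  have hc : ∀ k ≤ Q + 1, esize (X.cur F (H817.stAns xx yy ℓ μ (ℓ / μ) D') k) ≤ K * Ts.Dc F :=
    fun k _ => (esize_nat_le_self _).trans (h.cur_le k)
  have hc' : ∀ k ≤ Q + 1, esize (decC (X.D F)
      (X.cur F (H817.stAns xx yy ℓ μ (ℓ / μ) D') k - 1)) ≤ 3 * (K * Ts.Dc F) + 1 := by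
    intro k _
    unfold decC
    rw [Lib.PolyTime.esize_pair]
    have h1 := h.cur_le k
    set x := X.cur F (H817.stAns xx yy ℓ μ (ℓ / μ) D') k with hx
    have h2 := (esize_nat_le_self ((x - 1) / X.D F)).trans (Nat.div_le_self _ _)
    have h3 := (esize_nat_le_self ((x - 1) % X.D F)).trans (Nat.mod_le _ _)
    omega
  exact (h.ok hb).runOk_fin hf hc hc' hout

/-- **The known cells at the end.** -/
theorem Cells.fin_eq {b : ℕ} (hb : ℓ < 2 ^ b) (Q : ℕ) :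
    ∃ T : KT, (∀ c ∈ T, c.2 = cellR xx yy ℓ μ w0 c0 c.1.1 c.1.2) ∧ T.keys ⊆ R ∧
      X.strat.fin (H817.stAns xx yy ℓ μ (ℓ / μ) D') Q F = X.out (F, T) ∧
      (R.card * nsK μ w0 κ ≤ Q → T.keys = R) := by
  obtain ⟨k, h1, h2⟩ := MStrat.fin_eq h.next h.Dc h.res h.lab (h.ok hb) Q
  refine ⟨_, h.res.ans_eq k, h.res.sub k, h1, fun hQ => h2 (le_trans ?_ hQ)⟩
  rw [← smul_eq_mul, ← Finset.sum_const]
  refine Finset.sum_le_sum fun c hc => ?_
  rw [h.ns]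
  refine nsM_le ?_
  rw [Nat.add_sub_cancel]
  have h3 : c.2 < Ts.Dc F := (h.res.row c hc).2.trans_le h.lab
  rw [Nat.add_comm, Nat.add_mul_mod_self_right, Nat.mod_eq_of_lt h3]
  exact h.hcl c hc

end

/-! ### The certified cost of the root -/

theorem kt_eq {T : KT} {g : ℕ × ℕ → List ℕ} (h : ∀ c ∈ T, c.2 = g c.1) :
    T = (T.map Prod.fst).map fun c => (c, g c) := by
  rw [List.map_map]
  symm
  refine (List.map_congr_left fun c hc => ?_).trans (List.map_id _)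
  exact Prod.ext rfl (h c hc).symm

/-- The certified cost from the known cells. -/
theorem out_cval {m ℓ μ B w0 J S H Kc D1 c0 : ℕ} (xx yy : ℕ → ℕ) (hμ : 0 < μ) (hw : 0 < w0)
    (hd : μ ∣ ℓ / 2) (hdw : μ ∣ w0) (h0 : μ ∣ c0) (hev : ℓ = 2 * (ℓ / 2)) (vis : Leaf)
    {vis' : ℕ → ℕ → ℕ → ℕ}
    (hvis : ∀ i p q, μ ∣ p → μ ∣ q → p ≤ B → q ≤ B → nd p q ≤ ℓ / 2 → vis' i p q = vis i p q)
    {T : KT} (hT : ∀ c ∈ T, c.2 = cellR xx yy ℓ μ w0 c0 c.1.1 c.1.2)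
    (j i : ℕ) {u v : ℕ} (hu : μ ∣ u) (hv : μ ∣ v) (hvB : v ≤ B) :
    (cvalRF (B / μ + 1) μ 2 (adM ℓ) (cvB w0) (idxR ℓ μ w0 c0) vis' T ((2 ^ m) ^ j) i
      (u / μ)).getD (v / μ) 0 =
      cval (clsPar m ℓ μ B w0 J S H Kc D1) vis (H54.hidM xx yy (ℓ / 2) c0) T.keys j i u v := by
  have h1 := cvM_eq (m := m) (B := B) (J := J) (S := S) (H := H) (Kc := Kc) (D1 := D1) xx yy hμ hw
    hd hdw h0 hev vis hvis (T.map Prod.fst) j i hu hv hvB
  rw [← kt_eq (g := fun c => cellR xx yy ℓ μ w0 c0 c.1 c.2) hT] at h1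
  exact h1

end Vale.Agent.P315.H155
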