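import Vale.Agent.P315.H155.M2Run
import Vale.Agent.P315.H207.M2Cst
import Vale.Agent.P315.H514.StB
import Vale.Agent.P315.H608.Time2

/-!
P315, milestone 2 (helper155): the strategy `m2Strat` with the feed of the main program `mulF`:
the conditions of the run (`m2_hrun`), the hypotheses of `main_solves2` (`m2_block`).
-/

set_option autoImplicit false

namespace Vale.Agent.P315.H155

open Vale.Agent.P315.C Vale.Agent.P315.RAM Vale.Agent.P315.H608 Vale.Agent.P315.H873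
open Vale.Agent.P315.H207.M2 (FitM exists_fitM rndF fvis K_eq2)
open Vale.Agent.P315.H95 (enc)
open Vale.Agent.P315.Q (labB)

section

variable {c : Cst2} {m k q cb N₀ : ℕ} {p : ℕ × ℕ} {F : List ℕ}

theorem grid_of_fitM (hF : FitM c q m k F p) :
    Grid ((2 ^ (20 * m)) ^ c.L (gp c q p)) (c.μ2 (sl p) (gp c q p)) (c.ℓ2 (sl p) (gp c q p))
      (c.w0 (sl p) (gp c q p)) (c.B2 (sl p) (gp c q p)) (c.c0 (sl p) (gp c q p)) (pe2 c q p)
      (c.D2 (gp c q p)) where
  ev := hF.hev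
  dl := hF.hd
  dw := hF.hdw
  dc := hF.h0
  de := hF.hpμ
  cB := Cst2.c0_le_B2 _ _
  eB := hF.hpB
  hD := hF.hKD

theorem ans_eq_mulF (x y : List ℕ) : (mulF c q cb N₀).ans x y =
    H817.stAns (fun i => x.getD i 0) (fun i => y.getD i 0) (c.ℓ2 (sl (len2 x y)) (gp c q (len2 x y)))
      (c.μ2 (sl (len2 x y)) (gp c q (len2 x y)))
      (c.ℓ2 (sl (len2 x y)) (gp c q (len2 x y)) / c.μ2 (sl (len2 x y)) (gp c q (len2 x y)))
      (c.D2 (gp c q (len2 x y))) := by
  rw [Cst2.ℓ2_div_μ2]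
  rfl

/-- All entries of the feed are small. -/
theorem mulF_feed_lt {x y : List ℕ} {S Vb R Sz Tp : ℕ} {VIS : (ℕ → ℕ) → List ℕ}
    (hf : (mulF c q cb N₀).Fits x y S Vb R Sz Tp VIS) {cc : ℕ → ℕ}
    (hcc : ∀ i, cc i < (mulF c q cb N₀).e (len2 x y)) :
    ∀ v ∈ (mulF c q cb N₀).feed VIS (len2 x y) cc, v < 2 ^ (mulF c q cb N₀).m (len2 x y) := by
  intro v hv
  unfold H486.MulF.feed at hv
  rcases List.mem_append.mp hv with h | h
  · rcases List.mem_append.mp h with h | h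
    · exact hf.hpre v h
    · obtain ⟨i, -, rfl⟩ := List.mem_map.mp h
      exact lt_of_lt_of_le (hcc i) hf.e1
  · exact hf.vis_lt _ v h

end

/-- **The conditions of the run** for the feed of the main program. -/
theorem m2_hrun (c : Cst2) {m : ℕ} (hm : 0 < m) (hbm : c.bm = 20 * m) (k cd D1 : ℕ)
    (hak : 2 ≤ c.ak) : ∃ g₁ : ℕ, ∀ (q cb N₀ : ℕ) (x y : List ℕ), g₁ ≤ gp c q (len2 x y) →
      ∀ (S Vb R Sz Tp : ℕ) (VIS : (ℕ → ℕ) → List ℕ),
      (mulF c q cb N₀).Fits x y S Vb R Sz Tp VIS →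
      c.K (gp c q (len2 x y)) * 2 ^ (mulF c q cb N₀).m (len2 x y) +
        2 * c.B2 (sl (len2 x y)) (gp c q (len2 x y)) +
        (2 * c.μ2 (sl (len2 x y)) (gp c q (len2 x y)) + 1) ≤ R →
      ∀ cc : ℕ → ℕ, (∀ i, cc i < (mulF c q cb N₀).e (len2 x y)) →
        (m2Strat m k cd D1).RunOk ((mulF c q cb N₀).ans x y) ((mulF c q cb N₀).Q (len2 x y))
          (((mulF c q cb N₀).pfx (len2 x y) ++
            (List.range ((mulF c q cb N₀).N (len2 x y))).map cc) ++
            VIS (H486.MulF.sdL ((mulF c q cb N₀).N (len2 x y))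
              ((mulF c q cb N₀).NS (len2 x y)) cc))
          (H514.szM c cb (sl (len2 x y)) (gp c q (len2 x y)))
          (c.K (gp c q (len2 x y)) * c.D2 (gp c q (len2 x y))) R := by
  obtain ⟨g₁, h⟩ := exists_fitM c hm hbm k hak
  refine ⟨g₁, fun q cb N₀ x y hg S Vb R Sz Tp VIS hf hR cc hcc => ?_⟩
  have hF := h q cb N₀ (len2 x y) hg VIS cc (hf.vis_len _)
  have hK := K_eq2 hbm (gp c q (len2 x y))
  have hrun := m2_runOk (cd := cd) (D1 := D1) (V := R) (Q := (mulF c q cb N₀).Q (len2 x y))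
    hF.fit (grid_of_fitM hF) hF.hD (fun i => x.getD i 0) (fun i => y.getD i 0)
    (b := (mulF c q cb N₀).m (len2 x y)) hf.hl (mulF_feed_lt hf hcc) hF.hpe (by rw [hK]; exact hR)
  rw [← ans_eq_mulF (cb := cb) (N₀ := N₀), hK, ← hbm,
    H486.MulF.length_feed (hf.vis_len _)] at hrun
  exact hrun

/-- **The hypotheses of `main_solves2`** on the parameters and on the run of the strategy. -/
theorem m2_block (c : Cst2) {m : ℕ} (hm : 0 < m) (hbm : c.bm = 20 * m) (k cd D1 : ℕ)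
    (hak : 2 ≤ c.ak) {q : ℕ} (hq : 1 ≤ q) (N₁ : ℕ) : ∃ cb₀ n0 : ℕ, 1 ≤ n0 ∧ ∀ cb, cb₀ ≤ cb →
      ∃ c1₀ : ℕ, ∀ c1, c1₀ ≤ c1 →
      (∀ x y : List ℕ, (mulF c q cb N₁).Fits x y
        (H514.szM c cb (sl (len2 x y)) (gp c q (len2 x y)))
        (c.K (gp c q (len2 x y)) * c.D2 (gp c q (len2 x y)))
        ((max x.length y.length + 2) ^ c1) 130 (H933.tpre (GF c q) (len2 x y))
        (H933.visG (GF c q) x y)) ∧
      (∀ x y : List ℕ, n0 ≤ max x.length y.length → ∀ cc : ℕ → ℕ,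
        (∀ i, cc i < (mulF c q cb N₁).e (len2 x y)) →
        (m2Strat m k cd D1).RunOk ((mulF c q cb N₁).ans x y) ((mulF c q cb N₁).Q (len2 x y))
          (((mulF c q cb N₁).pfx (len2 x y) ++
            (List.range ((mulF c q cb N₁).N (len2 x y))).map cc) ++
            H933.visG (GF c q) x y (H486.MulF.sdL ((mulF c q cb N₁).N (len2 x y))
              ((mulF c q cb N₁).NS (len2 x y)) cc))
          (H514.szM c cb (sl (len2 x y)) (gp c q (len2 x y)))
          (c.K (gp c q (len2 x y)) * c.D2 (gp c q (len2 x y)))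
          ((max x.length y.length + 2) ^ c1)) := by
  obtain ⟨cb₀, hfits⟩ := mulF_fits c hq N₁
  obtain ⟨g₁, hrun⟩ := m2_hrun c hm hbm k cd D1 hak
  obtain ⟨n1, hn1⟩ := c.le_G hq g₁
  refine ⟨cb₀, n1 + 1, by omega, fun cb hcb => ?_⟩
  obtain ⟨bS, hbS⟩ := H514.szM_le_pow c cb
  obtain ⟨bV, hbV⟩ := H514.vb_le_pow c
  obtain ⟨bR, hbR⟩ := H514.out_le_pow c cb
  obtain ⟨c1₀, hc1⟩ := hfits cb hcb bS bV
  refine ⟨max c1₀ (2 * bR), fun c1 hc => ?_⟩
  have hF : ∀ x y : List ℕ, (mulF c q cb N₁).Fits x y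
        (H514.szM c cb (sl (len2 x y)) (gp c q (len2 x y)))
        (c.K (gp c q (len2 x y)) * c.D2 (gp c q (len2 x y)))
        ((max x.length y.length + 2) ^ c1) 130 (H933.tpre (GF c q) (len2 x y))
        (H933.visG (GF c q) x y) := fun x y =>
    hc1 c1 (le_trans (le_max_left _ _) hc) x y _ _ (hbS q (x.length + y.length) hq)
      (hbV q (x.length + y.length) hq)
  refine ⟨hF, fun x y hn cc hcc => hrun q cb N₁ x y (hn1 _ ?_) _ _ _ _ _ _ (hF x y) ?_ cc hcc⟩
  · show n1 ≤ x.length + y.length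
    have := max_le_add_of_nonneg (Nat.zero_le x.length) (Nat.zero_le y.length)
    omega
  · refine (hbR q (x.length + y.length) hq).trans ?_
    calc (x.length + y.length + 2) ^ bR ≤ ((max x.length y.length + 2) ^ 2) ^ bR :=
          Nat.pow_le_pow_left (add_two_le_sq _ _) _
      _ = (max x.length y.length + 2) ^ (2 * bR) := by rw [← pow_mul]
      _ ≤ _ := Nat.pow_le_pow_right (by omega) (le_trans (le_max_right _ _) hc)

end Vale.Agent.P315.H155
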