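import Vale.Agent.P315.H155.M2Cells
import Vale.Agent.P315.H207.M2Loop
import Vale.Agent.P315.H731.VisCongr
import Vale.Agent.P315.H140.Best

/-!
P315, milestone 2 (helper155): the strategy `m2Strat` for the family `fam2`: its output (`m2_fin`)
and the conditions on its run (`m2_runOk`).
-/

set_option autoImplicit false

namespace Vale.Agent.P315.H155

open Vale.Agent.Lib.PolyTime Vale.Agent.P315.C Vale.Agent.P315.H95 Vale.Agent.P315.RAM
  Vale.Agent.P315.Q Vale.Agent.P315.H207 Vale.Agent.P315.H207.M2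

/-! ### The strategy -/

/-- The data of the strategy. -/
def m2X (m k cd D1 : ℕ) : MStrat where
  next := nextOf (st m k cd D1)
  out := out2 m
  ns := ns2 m
  w := w2
  D := (st m k cd D1).Dc
  sub := sub2 m
  pt_next := pt_nextOf _
  pt_out := PT_out2 m
  pt_ns := PT_ns2 m
  pt_w := PT_w2
  pt_D := (st m k cd D1).ptDc
  pt_sub := PT_sub2 m

/-- **The strategy of milestone 2** for the main program. -/
def m2Strat (m k cd D1 : ℕ) : RAM.Strat Q.St := (m2X m k cd D1).strat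

/-! ### The machines look only at the unit rows that exist -/

theorem laneRow_fam2 (m k cd D1 n S ℓ μ B w0 Kc κr : ℕ) :
    H731.LaneRow (fam2 m k cd D1 n S ℓ μ B w0 Kc κr).P
      (fam2 m k cd D1 n S ℓ μ B w0 Kc κr).mc := by
  intro s q κ j a D D' coin _ _ _ h r _
  exact laneWN_congr (H763.labL_ne _ _ _ _) (fun κ' hκ' r' hr' x _ u v _ _ _ _ =>
    h κ' hκ' r' hr' x u v) r

/-! ### The cost of the constant route -/

theorem cval_le_const {P : C.Par} {vis hid : Leaf} {R : Finset (ℕ × ℕ)} {n c0 v V : ℕ}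
    (hE : H140.Ed P c0 c0) (hV : ∀ i < P.M ^ n, vis i c0 c0 ≤ V)
    (hH : ∀ i < P.M ^ n, hid i c0 c0 ≤ V) :
    cval P vis hid R n 0 c0 v ≤ P.M ^ n * V + P.sh * Nat.dist c0 v := by
  unfold cval
  have hr : P.RouteOK (P.M ^ n) (fun _ => (c0, c0)) := fun i _ => hE
  refine (H140.best_le_rcost _ _ _ _ _ hr).trans ?_
  unfold rcost
  have hp : ∀ i, prevPos c0 (fun _ => (c0, c0)) i = c0 := by
    intro i; cases i <;> rfl
  simp only [hp, Nat.dist_self, Nat.mul_zero, Nat.zero_add]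
  refine Nat.add_le_add ?_ le_rfl
  calc ∑ i ∈ Finset.range (P.M ^ n), known P vis hid R (0 * P.M ^ n + i) c0 c0
      ≤ ∑ _i ∈ Finset.range (P.M ^ n), V := Finset.sum_le_sum fun i hi => by
        have hi' := Finset.mem_range.1 hi
        rw [Nat.zero_mul, Nat.zero_add]
        unfold known
        split_ifs
        · exact hH i hi'
        · exact hV i hi'
    _ = P.M ^ n * V := by rw [Finset.sum_const, Finset.card_range, smul_eq_mul]

/-! ### The numbers -/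

/-- The conditions on the grid: start `c0`, end `pe`, base `D'` of the codes of the queries,
`K` rows. -/
structure Grid (K μ ℓ w0 B c0 pe D' : ℕ) : Prop where
  ev : ℓ = 2 * (ℓ / 2)
  dl : μ ∣ ℓ / 2
  dw : μ ∣ w0
  dc : μ ∣ c0
  de : μ ∣ pe
  cB : c0 ≤ B
  eB : pe ≤ B
  hD : K * ℓ < D' * μ

theorem Grid.dvd {K μ ℓ w0 B c0 pe D' : ℕ} (h : Grid K μ ℓ w0 B c0 pe D') : μ ∣ ℓ := by
  rw [h.ev]
  exact h.dl.mul_left 2

/-- Size of the states: feed of length `len`, numbers of `b` bits, `K` rows, labels below `Lab`,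
at most `ns` queries per cell, `Q` rounds, answers of length `w`. -/
def m2Sz (len b K Lab ns w Q : ℕ) : ℕ :=
  mSz (len * (2 * b + 1)) (K * Lab) (3 * (K * Lab) + 1) (ns * w) b Q

section

variable {m k cd D1 : ℕ} {F : List ℕ} {n S μ ℓ w0 Kc kr B c0 pe D' : ℕ}
  (hF : H207.M2.Fit m k F n S μ ℓ w0 Kc kr B c0)
  (hG : Grid ((2 ^ (20 * m)) ^ n) μ ℓ w0 B c0 pe D') (hfD : F.getD 10 0 = D') (xx yy : ℕ → ℕ)
include hF hG hfD

/-- The queries and the cells. -/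
theorem m2_cells :
    Cells (m2X m k cd D1) (st m k cd D1) F xx yy ((2 ^ (20 * m)) ^ n) (fU F) ℓ μ w0 c0 D' (Kc + 3)
      (rd (fam2 m k cd D1 n S ℓ μ B w0 Kc kr).P (fam2 m k cd D1 n S ℓ μ B w0 Kc kr).mc
        (rndF m k n S ℓ F) (fvis F) (H54.hidM xx yy (ℓ / 2) c0) n 0 (enc kr 0 0)
        (fam2 m k cd D1 n S ℓ μ B w0 Kc kr).N) where
  μ0 := hF.μ0
  K0 := by positivity
  ev := hG.ev
  next := rfl
  Dc := rfl
  rows := by
    show (2 ^ (20 * m)) ^ fn F = _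
    rw [fn_eq hF]
  w := by
    show fℓ F / fμ F + 1 = _
    rw [fℓ_eq hF, fμ_eq hF]
  ns := fun cur => by
    show nsM (fU F) (fμ F) (fw F) (fLab m F) cur = _
    rw [fμ_eq hF, fw_eq hF]
    rfl
  sub := fun cur r => by
    show subM (fU F) (fℓ F) (fμ F) (fw F) (fc F) (fD F) (fLab m F) cur r = _
    rw [fℓ_eq hF, fμ_eq hF, fw_eq hF, fc_eq hF, show fD F = D' from hfD]
    rfl
  lab := le_rfl
  hcl := rd_cl hF hG.dl hG.dw hG.dc hG.ev
  hD := hG.hD
  res := m2_loop hF hfD hG.dl hG.dw hG.dc hG.ev hG.hD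

/-- **The output of the strategy**: the certified cost of the root for a part `R` of the read set
of the root, the whole set if there are enough rounds. The leaf `vis` agrees with the table in
the feed on the admissible mesh steps. -/
theorem m2_fin (hfe : F.getD 9 0 = pe) {vis : Leaf}
    (hvis : H731.AgreeOn (fam2 m k cd D1 n S ℓ μ B w0 Kc kr).P ((2 ^ (20 * m)) ^ n) (fvis F) vis)
    (Q : ℕ) :
    ∃ R : Finset (ℕ × ℕ),
      (m2Strat m k cd D1).fin (H817.stAns xx yy ℓ μ (ℓ / μ) D') Q F =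
        cval (fam2 m k cd D1 n S ℓ μ B w0 Kc kr).P vis (H54.hidM xx yy (ℓ / 2) c0) R n 0 c0 pe +
          (2 * μ + 1) ∧
      ((rd (fam2 m k cd D1 n S ℓ μ B w0 Kc kr).P (fam2 m k cd D1 n S ℓ μ B w0 Kc kr).mc
        (rndF m k n S ℓ F) vis (H54.hidM xx yy (ℓ / 2) c0) n 0 (enc kr 0 0)
        (fam2 m k cd D1 n S ℓ μ B w0 Kc kr).N).card * (2 ^ (Kc + 4) * (w0 / μ) + 1) ≤ Q →
        R = rd (fam2 m k cd D1 n S ℓ μ B w0 Kc kr).P (fam2 m k cd D1 n S ℓ μ B w0 Kc kr).mc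
          (rndF m k n S ℓ F) vis (H54.hidM xx yy (ℓ / 2) c0) n 0 (enc kr 0 0)
          (fam2 m k cd D1 n S ℓ μ B w0 Kc kr).N) := by
  obtain ⟨b, hb⟩ : ∃ b, ℓ < 2 ^ b := ⟨ℓ, Nat.lt_two_pow_self⟩
  obtain ⟨T, h1, _, h3, h4⟩ := (m2_cells (cd := cd) (D1 := D1) hF hG hfD xx yy).fin_eq hb Q
  have hrd := H731.root_rd_congr (ω := rndF m k n S ℓ F)
    (laneRow_fam2 m k cd D1 n S ℓ μ B w0 Kc kr) hvis
    (H731.AgreeOn.refl _ _ (H54.hidM xx yy (ℓ / 2) c0)) (enc kr 0 0)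
    (fam2 m k cd D1 n S ℓ μ B w0 Kc kr).N
  refine ⟨T.keys, ?_, fun hQ => ?_⟩
  · show (m2X m k cd D1).strat.fin _ _ _ = _
    rw [h3]
    show out2 m (F, T) = _
    rw [out_eq (cd := cd) (D1 := D1) hF hfe hG.dl hG.dw hG.dc hG.ev hG.de hG.eB h1,
      H731.root_cval_congr hvis (H731.AgreeOn.refl _ _ _)]
  · rw [← hrd] at hQ ⊢
    refine h4 ?_
    rw [nsK_eq hG.dw]
    exact hQ

/-- A bound of the output. -/
theorem m2_fin_le {b : ℕ} (hb : ℓ < 2 ^ b) (hFb : ∀ v ∈ F, v < 2 ^ b)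
    (hfe : F.getD 9 0 = pe) (Q : ℕ) :
    (m2Strat m k cd D1).fin (H817.stAns xx yy ℓ μ (ℓ / μ) D') Q F ≤
      (2 ^ (20 * m)) ^ n * 2 ^ b + 2 * B + (2 * μ + 1) := by
  obtain ⟨T, h1, _, h3, _⟩ := (m2_cells (cd := cd) (D1 := D1) hF hG hfD xx yy).fin_eq hb Q
  show (m2X m k cd D1).strat.fin _ _ _ ≤ _
  rw [h3]
  show out2 m (F, T) ≤ _
  rw [out_eq (cd := cd) (D1 := D1) hF hfe hG.dl hG.dw hG.dc hG.ev hG.de hG.eB h1]
  refine Nat.add_le_add_right ?_ _
  have h5 : H140.Ed (fam2 m k cd D1 n S ℓ μ B w0 Kc kr).P c0 c0 := by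
    refine ⟨hG.dc, hG.dc, hG.cB, hG.cB, ?_⟩
    show nd c0 c0 ≤ ℓ / 2
    unfold nd
    omega
  have h6 : ∀ v, F.getD v 0 ≤ 2 ^ b := by
    intro v
    rcases Nat.lt_or_ge v F.length with h | h
    · rw [List.getD_eq_getElem _ _ h]
      exact (hFb _ (List.getElem_mem h)).le
    · rw [List.getD_eq_default _ _ h]
      exact Nat.zero_le _
  refine (cval_le_const (V := 2 ^ b) h5 (fun i _ => h6 _) (fun i _ => ?_)).trans ?_
  · refine (H54.hidM_le xx yy (Nat.le_add_right _ _) (Nat.le_add_right _ _)).trans ?_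
    rw [← hG.ev]
    exact hb.le
  · refine Nat.add_le_add le_rfl ?_
    show 2 * Nat.dist c0 pe ≤ 2 * B
    refine Nat.mul_le_mul_left _ ?_
    have h7 := hG.cB
    have h8 := hG.eB
    unfold Nat.dist
    omega

/-- **The run of the strategy.** -/
theorem m2_runOk {b : ℕ} (hb : ℓ < 2 ^ b) (hFb : ∀ v ∈ F, v < 2 ^ b) (hfe : F.getD 9 0 = pe)
    {Q V : ℕ} (hV : (2 ^ (20 * m)) ^ n * 2 ^ b + 2 * B + (2 * μ + 1) ≤ V) :
    (m2Strat m k cd D1).RunOk (H817.stAns xx yy ℓ μ (ℓ / μ) D') Q F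
      (m2Sz F.length b ((2 ^ (20 * m)) ^ n) (labB (20 * m) (Kc + 3) kr n)
        (2 ^ (Kc + 4) * (w0 / μ) + 1) (ℓ / μ + 1) Q) ((2 ^ (20 * m)) ^ n * D') V := by
  have h := (m2_cells (cd := cd) (D1 := D1) hF hG hfD xx yy).runOk (Q := Q) hb hFb
    ((m2_fin_le hF hG hfD xx yy hb hFb hfe Q).trans hV)
  rw [nsK_eq hG.dw, show (st m k cd D1).Dc F = labB (20 * m) (Kc + 3) kr n from fLab_eq hF] at h
  exact h

end

end Vale.Agent.P315.H155
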