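import Vale.Agent.P315.Q.LoopM
import Vale.Agent.P315.RAM.Inst

/-!
P315, milestone 2 (helper155): the strategy with one query per START as a `RAM.Strat`, the
conditions `RunOk` of the main program, and its output.
-/

set_option autoImplicit false

namespace Vale.Agent.P315.H155

open Vale.Agent.Lib.PolyTime Vale.Agent.P315.RAM Vale.Agent.P315.Q Vale.Agent.P315.H207

/-- Data of a strategy: next cell, output, number of queries of a cell, length of an answer, base
of the codes, codes of the queries of a cell. -/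
structure MStrat where
  next : List ℕ × Kn → ℕ
  out : List ℕ × Kn → ℕ
  ns : List ℕ × ℕ → ℕ
  w : List ℕ → ℕ
  D : List ℕ → ℕ
  sub : List ℕ × ℕ × ℕ → ℕ
  pt_next : PT ∅ next
  pt_out : PT ∅ out
  pt_ns : PT ∅ ns
  pt_w : PT ∅ w
  pt_D : PT ∅ D
  pt_sub : PT ∅ sub

/-- The strategy for the oracle loop. -/
def MStrat.strat (X : MStrat) : RAM.Strat Q.St where
  start := startS X.next
  ask := askM X.sub X.w
  upd := updS (lenMM X.ns X.w) X.D X.next
  out := outS X.out
  pt_start := pt_startS X.pt_next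
  pt_ask := pt_askM X.pt_sub X.pt_w
  pt_upd := pt_updS (pt_lenMM X.pt_ns X.pt_w) X.pt_D X.pt_next
  pt_out := pt_outS X.pt_out

section

variable {X : MStrat} {F : List ℕ} {ans : ℕ → List ℕ}

theorem MStrat.state_eq (X : MStrat) (F : List ℕ) (ans : ℕ → List ℕ) (t : ℕ) :
    X.strat.state ans F t =
      (oround (askM X.sub X.w) (updS (lenMM X.ns X.w) X.D X.next) ans)^[t] (startS X.next F) :=
  rfl

/-- The current query plus one after `k` complete cells. -/
abbrev MStrat.cur (X : MStrat) (F : List ℕ) (ans : ℕ → List ℕ) (k : ℕ) : ℕ :=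
  curM X.ns X.sub X.next X.D F ans k

/-- Conditions on the queries of a run. -/
structure MStrat.Ok (X : MStrat) (F : List ℕ) (ans : ℕ → List ℕ) (Vb a m : ℕ) : Prop where
  w_pos : 0 < X.w F
  ns_pos : ∀ q, 0 < X.ns (F, q)
  len : ∀ k, ∀ r < X.ns (F, X.cur F ans k), (ans (X.sub (F, X.cur F ans k, r))).length = X.w F
  ask : ∀ k, ∀ r < X.ns (F, X.cur F ans k), X.sub (F, X.cur F ans k, r) < Vb
  ns_le : ∀ k, X.ns (F, X.cur F ans k) * X.w F ≤ a
  ns_zero : X.ns (F, 0) * X.w F ≤ a
  val : ∀ k, ∀ r < X.ns (F, X.cur F ans k), ∀ v ∈ ans (X.sub (F, X.cur F ans k, r)),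
    esize v ≤ m

/-- Size of the states. -/
def mSz (f c c' a m Q : ℕ) : ℕ := stB f c c' (a + a) m (Q + 1)

theorem stB_mono {f c c' a a' m t : ℕ} (h : a ≤ a') : stB f c c' a m t ≤ stB f c c' a' m t := by
  unfold stB
  gcongr

/-- **The run of the strategy.** -/
theorem MStrat.runOk {Vb a m f c c' R Q : ℕ} (h : X.Ok F ans Vb a m) (hf : esize F ≤ f)
    (hc : ∀ k ≤ Q + 1, esize (X.cur F ans k) ≤ c)
    (hc' : ∀ k ≤ Q + 1, esize (decC (X.D F) (X.cur F ans k - 1)) ≤ c')
    (hout : ∀ k, k ≤ Q → X.out (F, tr X.next (X.D F) F (ansV X.ns X.sub ans F) k) ≤ R) :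
    X.strat.RunOk ans Q F (mSz f c c' a m Q) Vb R where
  ask := by
    intro t _
    obtain ⟨k, r, hr, _, hst⟩ := askM_run h.w_pos h.ns_pos h.len t
    rw [X.state_eq, hst]
    show askM X.sub X.w _ < Vb
    have hpl : (ansR X.sub ans F (X.cur F ans k) r).length = r * X.w F :=
      ansR_length fun i hi => h.len k i (lt_trans hi hr)
    unfold askM
    simp only [List.length_reverse, hpl]
    rw [Nat.mul_div_cancel _ h.w_pos]
    exact h.ask k r hr
  size := by
    intro t ht j hj
    refine (askM_size (B := Q + 1) h.w_pos h.ns_pos h.len hf (fun k _ => h.ns_le k)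
      (fun k _ r hr v hv => h.val k r hr v hv) hc hc' (by omega) j hj).trans ?_
    exact stB_mono (Nat.add_le_add_left h.ns_zero _)
  sizeQ := by
    have h1 := askM_size (B := Q + 1) (Q := Q) h.w_pos h.ns_pos h.len hf (fun k _ => h.ns_le k)
      (fun k _ r hr v hv => h.val k r hr v hv) hc hc' le_rfl 0 (Nat.zero_le _)
    rw [List.take_zero] at h1
    exact h1.trans (stB_mono (Nat.add_le_add_left h.ns_zero _))
  out := by
    obtain ⟨k, r, hr, hQ, hst⟩ := askM_run h.w_pos h.ns_pos h.len Q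
    show X.strat.out (X.strat.state ans F Q) ≤ R
    rw [X.state_eq, hst]
    refine hout k ?_
    have h1 : ∑ t ∈ Finset.range k, 1 ≤ ∑ t ∈ Finset.range k, X.ns (F, X.cur F ans t) :=
      Finset.sum_le_sum fun t _ => h.ns_pos _
    simp only [Finset.sum_const, Finset.card_range, smul_eq_mul, mul_one] at h1
    have h2 : ∑ t ∈ Finset.range k, X.ns (F, X.cur F ans t) + r = Q := hQ
    omega

/-- The run of the strategy, with a bound of the output. -/
theorem MStrat.Ok.runOk_fin {Vb a m f c c' R Q : ℕ} (h : X.Ok F ans Vb a m) (hf : esize F ≤ f)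
    (hc : ∀ k ≤ Q + 1, esize (X.cur F ans k) ≤ c)
    (hc' : ∀ k ≤ Q + 1, esize (decC (X.D F) (X.cur F ans k - 1)) ≤ c')
    (hout : X.strat.fin ans Q F ≤ R) :
    X.strat.RunOk ans Q F (mSz f c c' a m Q) Vb R := by
  have h1 := MStrat.runOk (R := Finset.sup (Finset.range (Q + 1)) fun k =>
    X.out (F, tr X.next (X.D F) F (ansV X.ns X.sub ans F) k)) h hf hc hc'
    (fun k hk => Finset.le_sup (f := fun k => X.out (F, tr X.next (X.D F) F
      (ansV X.ns X.sub ans F) k)) (Finset.mem_range.2 (by omega)))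
  exact ⟨h1.ask, h1.size, h1.sizeQ, hout⟩

/-- **The output of the strategy**: the output function at the known cells after some number of
cells; all cells of the root are known if the number of rounds is at least their weighted
number. -/
theorem MStrat.fin_eq {Ts : TStrat (List ℕ)} {Rt : Finset (ℕ × ℕ)} {hh : ℕ × ℕ → List ℕ}
    (hnext : X.next = nextOf Ts) (hDc : X.D = Ts.Dc)
    (hres : LoopRes Ts F Rt hh (ansV X.ns X.sub ans F)) (hD : Ts.Lab F ≤ Ts.Dc F)
    {Vb a m : ℕ} (h : X.Ok F ans Vb a m) (Q : ℕ) :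
    ∃ k, X.strat.fin ans Q F = X.out (F, knownT Ts F (ansV X.ns X.sub ans F) k) ∧
      (∑ c ∈ Rt, X.ns (F, c.1 * Ts.Dc F + c.2 + 1) ≤ Q →
        (knownT Ts F (ansV X.ns X.sub ans F) k).keys = Rt) := by
  have hl : AnsLen X.ns X.sub (nextOf Ts) X.w Ts.Dc F ans := by
    intro k r hr
    have h1 := h.len k
    unfold MStrat.cur at h1
    rw [hnext, hDc] at h1
    exact h1 r hr
  obtain ⟨k, part, hst, hfull⟩ := loopM hres hD h.w_pos h.ns_pos hl Q
  refine ⟨k, ?_, hfull⟩
  unfold Strat.fin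
  rw [X.state_eq, hnext, hDc, hst]
  rfl

end

end Vale.Agent.P315.H155
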