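import Vale.Agent.P315.H155.LaneW
import Vale.Agent.P315.H801.Mach
import Vale.Agent.P315.H95.Label

/-!
P315, milestone 2 (helper155): the machines with edge weights, over `C.Alg`.

A machine of scale `s` in a region of level `j` with label `a` works on the nodes
`n = x + (2 K g + 1) * l`: `x ≤ 2 K g` = number of a position in the box of `a` (position
`lo + x * Z / g`, rounded down to the mesh, at most `B`; `Z` = width of a unit of the class of `a`,
`K = M ^ 2 ^ s`), `l` = number of a label in the list `LB` of the region. The graph has `K + 2`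
rows: the rows `1, …, K` are the unit rows (the label of the unit is the label of the target node,
the weight of the edge is `2 ^ (class of the unit - class of the region)`), the first and the last
row are shifts of weight `1`. The constant price of an edge is its weight times `rhW`.
-/

set_option autoImplicit false

namespace Vale.Agent.P315.H155

open Vale.Agent.P315.H763 Vale.Agent.P315.H220 Vale.Agent.P315.H801
open Vale.Agent.P315.H95 (cl bx ac wd)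

/-- Parameters of the machines, by scale. -/
structure MPW where
  /-- net points per unit length -/
  g : ℕ → ℕ
  /-- length of the blocks -/
  Dl : ℕ → ℕ
  /-- number of classes -/
  NL : ℕ → ℕ
  /-- number of instances -/
  R : ℕ → ℕ
  /-- number of samples -/
  Sm : ℕ → ℕ
  /-- number of stored paths -/
  T : ℕ → ℕ
  /-- scaling of the harmonic numbers -/
  Sh : ℕ → ℕ
  /-- resolution of the logarithms -/
  Rh : ℕ → ℕ
  /-- the cap is `C / 2 ^ l` units -/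
  C : ℕ

/-- Number of the machines of scale `s`. -/
def MPW.cnt (X : MPW) (s : ℕ) : ℕ :=
  if s = 0 then 0 else cntQ (2 * X.g s) (X.NL s) (X.Dl s) (X.R s) (X.Sm s)

/-- Number of nodes. -/
def pW (K g : ℕ) (LB : List ℕ) : ℕ := (2 * K * g + 1) * LB.length

/-- Position of a node. -/
def posX (K Z g μ B lo n : ℕ) : ℕ := posN μ B lo Z g (n % (2 * K * g + 1))

/-- Label of a node. -/
def labX (K g : ℕ) (LB : List ℕ) (n : ℕ) : ℕ := LB.getD (n / (2 * K * g + 1)) (LB.headD 0)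

/-- Costs on the nodes: shifts in the first and in the last row. -/
def nodeW (K Z g μ B lo : ℕ) (LB : List ℕ) (D : ℕ → ℕ → ℕ → ℕ → ℕ → ℕ) :
    ℕ → ℕ → ℕ → ℕ → ℕ :=
  fun κ m x y => if 1 ≤ m ∧ m ≤ K then
      D κ (m - 1) (labX K g LB y) (posX K Z g μ B lo x) (posX K Z g μ B lo y)
    else 2 * ((posX K Z g μ B lo x - posX K Z g μ B lo y) +
      (posX K Z g μ B lo y - posX K Z g μ B lo x))

/-- Excess of the class of a label. -/
def kxW (wm ca x : ℕ) : ℕ := min (cl x - ca) wm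

/-- Weights of the edges. -/
def wtW (K g wm ca : ℕ) (LB : List ℕ) (m _x y : ℕ) : ℕ :=
  if 1 ≤ m ∧ m ≤ K then 2 ^ kxW wm ca (labX K g LB y) else 1

/-- Prices of the edges per unit of weight. -/
def rhW (K g wm ca : ℕ) (LB : List ℕ) (m _x y : ℕ) : ℕ :=
  (if 1 ≤ m ∧ m ≤ K then kxW wm ca (labX K g LB y) else 0) + 2 * Nat.size (pW K g LB)

/-- Constant prices, scaled. -/
def prcW (Sh cap K g wm ca : ℕ) (LB : List ℕ) (m x y : ℕ) : ℕ :=
  Sh * cap * (wtW K g wm ca LB m x y * rhW K g wm ca LB m x y)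

/-- The stored paths of machine `q` in round `κ`. -/
def storedW (K h wm Z g NL Dl R T Sh Rh C μ B lo q κ ca : ℕ) (LB : List ℕ)
    (D : ℕ → ℕ → ℕ → ℕ → ℕ → ℕ) : List (List ℕ) :=
  pathsW Sh Rh (2 ^ wm) (cdiv (C * Z) (2 ^ qL (2 * g) NL q)) T (qA (2 * g) q * K)
    (min (qB (2 * g) q) (2 * g) * K) h Dl (qO (2 * g) NL Dl q)
    (cdiv (K * Z) (2 ^ qL (2 * g) NL q)) (cdiv (K * Z) (2 ^ (qL (2 * g) NL q + 1)))
    (qR (2 * g) NL Dl R q) (tabOf (K + 2) (pW K g LB) (wtW K g wm ca LB))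
    (tabOf (K + 2) (pW K g LB)
      (prcW Sh (cdiv (C * Z) (2 ^ qL (2 * g) NL q)) K g wm ca LB))
    (histOf (K + 2) (pW K g LB) (nodeW K Z g μ B lo LB D) κ) κ

/-- The piece (label, entry, exit) from node `x` to node `y`. -/
def pieceW (K Z g μ B lo : ℕ) (LB : List ℕ) (x y : ℕ) : ℕ × ℕ × ℕ :=
  (labX K g LB y, posX K Z g μ B lo x, posX K Z g μ B lo y)

/-- The piece in the unit row `m` of a node sequence. -/
def pieceWOf (K Z g μ B lo : ℕ) (LB : List ℕ) (ns : List ℕ) (m : ℕ) : ℕ × ℕ × ℕ :=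
  pieceW K Z g μ B lo LB (min (ns.getD (m + 1) 0) (pW K g LB - 1))
    (min (ns.getD (m + 2) 0) (pW K g LB - 1))

/-- The lane of machine `q` in round `κ`. -/
def laneWN (K h wm Z g NL Dl R T Sh Rh C μ B lo q κ ca : ℕ) (LB : List ℕ) (coin : ℕ → ℕ)
    (D : ℕ → ℕ → ℕ → ℕ → ℕ → ℕ) (m : ℕ) : ℕ × ℕ × ℕ :=
  pieceWOf K Z g μ B lo LB
    ((storedW K h wm Z g NL Dl R T Sh Rh C μ B lo q κ ca LB D).getD
      (coin (qS (2 * g) NL Dl R q) % T) []) m

/-- The machines; `LB s a` = list of labels of the units of scale `s` in a region with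
label `a`. -/
def machW (X : MPW) (LB : ℕ → ℕ → List ℕ) (m μ B w0 : ℕ) : C.Mach where
  cnt := X.cnt
  lane := fun s q κ j a D coin r => laneWN ((2 ^ m) ^ 2 ^ s) (2 ^ s) (m * 2 ^ s)
    (wd m w0 (j - 2 ^ s) (cl a)) (X.g s) (X.NL s) (X.Dl s) (X.R s) (X.T s) (X.Sh s) (X.Rh s) X.C
    μ B (bx a * ((2 ^ m) ^ 2 ^ s * wd m w0 (j - 2 ^ s) (cl a))) q κ (cl a) (LB s a) coin D r

/-! ### Structural requirements -/

theorem headD_mem {LB : List ℕ} (h : LB ≠ []) : LB.headD 0 ∈ LB := by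
  cases LB with
  | nil => exact absurd rfl h
  | cons x L => simp

theorem labX_mem {LB : List ℕ} (h : LB ≠ []) (K g n : ℕ) : labX K g LB n ∈ LB := by
  unfold labX
  rcases Nat.lt_or_ge (n / (2 * K * g + 1)) LB.length with h1 | h1
  · rw [List.getD_eq_getElem _ _ h1]; exact List.getElem_mem h1
  · rw [List.getD_eq_default _ _ h1]; exact headD_mem h

theorem posX_le (K Z g μ B lo n : ℕ) : posX K Z g μ B lo n ≤ B := posN_le _ _ _ _ _ _

theorem dvd_posX (K Z g μ B lo n : ℕ) : μ ∣ posX K Z g μ B lo n := dvd_posN _ _ _ _ _ _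

theorem pW_pos {K g : ℕ} {LB : List ℕ} (h : LB ≠ []) : 0 < pW K g LB :=
  Nat.mul_pos (Nat.succ_pos _) (List.length_pos_iff.2 h)

theorem le_pW {K g : ℕ} {LB : List ℕ} (h : LB ≠ []) : 2 * K * g + 1 ≤ pW K g LB :=
  Nat.le_mul_of_pos_right _ (List.length_pos_iff.2 h)

/-- Locality: only the costs of the rounds `κ' ≤ κ`, the rows `m < K`, the labels in `LB` and mesh
positions at most `B` are used. -/
theorem storedW_congr {K h wm Z g NL Dl R T Sh Rh C μ B lo q κ ca : ℕ} {LB : List ℕ}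
    (hLB : LB ≠ []) {D D' : ℕ → ℕ → ℕ → ℕ → ℕ → ℕ}
    (hD : ∀ κ' ≤ κ, ∀ m < K, ∀ x ∈ LB, ∀ u v, μ ∣ u → u ≤ B → μ ∣ v →
      v ≤ B → D κ' m x u v = D' κ' m x u v) :
    storedW K h wm Z g NL Dl R T Sh Rh C μ B lo q κ ca LB D =
      storedW K h wm Z g NL Dl R T Sh Rh C μ B lo q κ ca LB D' := by
  unfold storedW
  rw [histOf_congr (D := nodeW K Z g μ B lo LB D) (D' := nodeW K Z g μ B lo LB D')]
  intro κ' hκ' m _ x _ y _
  unfold nodeW
  by_cases h1 : 1 ≤ m ∧ m ≤ K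
  · rw [if_pos h1, if_pos h1]
    exact hD κ' hκ' _ (by omega) _ (labX_mem hLB _ _ _) _ _ (dvd_posX _ _ _ _ _ _ _)
      (posX_le _ _ _ _ _ _ _) (dvd_posX _ _ _ _ _ _ _) (posX_le _ _ _ _ _ _ _)
  · rw [if_neg h1, if_neg h1]

theorem laneWN_congr {K h wm Z g NL Dl R T Sh Rh C μ B lo q κ ca : ℕ} {LB : List ℕ}
    (hLB : LB ≠ []) {coin : ℕ → ℕ} {D D' : ℕ → ℕ → ℕ → ℕ → ℕ → ℕ}
    (hD : ∀ κ' ≤ κ, ∀ m < K, ∀ x ∈ LB, ∀ u v, μ ∣ u → u ≤ B → μ ∣ v →
      v ≤ B → D κ' m x u v = D' κ' m x u v) (m : ℕ) :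
    laneWN K h wm Z g NL Dl R T Sh Rh C μ B lo q κ ca LB coin D m =
      laneWN K h wm Z g NL Dl R T Sh Rh C μ B lo q κ ca LB coin D' m := by
  unfold laneWN
  rw [storedW_congr hLB hD]

theorem laneWN_label {K h wm Z g NL Dl R T Sh Rh C μ B lo q κ ca : ℕ} {LB : List ℕ}
    (hLB : LB ≠ []) (coin : ℕ → ℕ) (D : ℕ → ℕ → ℕ → ℕ → ℕ → ℕ) (m : ℕ) :
    (laneWN K h wm Z g NL Dl R T Sh Rh C μ B lo q κ ca LB coin D m).1 ∈ LB :=
  labX_mem hLB _ _ _

theorem machOKW (X : MPW) {LB : ℕ → ℕ → List ℕ} {m ℓ μ B w0 J S H Kc D1 : ℕ}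
    (hLB : ∀ s a, LB s a ≠ [])
    (hdesc : ∀ s j a, ∀ x ∈ LB s a, x ∈ (H95.clsPar m ℓ μ B w0 J S H Kc D1).desc j (2 ^ s) a) :
    C.MachOK (H95.clsPar m ℓ μ B w0 J S H Kc D1) (machW X LB m μ B w0) where
  congr := by
    intro s q κ j a D D' coin h
    funext r
    exact laneWN_congr (hLB s a) (fun κ' hκ' m _ x _ u v _ _ _ _ => by rw [h κ' hκ']) r
  label := by
    intro s q κ j a D coin r _ _ _
    exact hdesc s j a _ (laneWN_label (hLB s a) coin D r)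
  mesh := by
    intro s q κ j a D coin m
    exact ⟨Dvd.intro _ rfl, Dvd.intro _ rfl⟩

/-! ### The law of the lane and the greedy property -/

/-- The edges of the stored path number `n`. -/
def pkW (K h wm Z g NL Dl R T Sh Rh C μ B lo q κ ca : ℕ) (LB : List ℕ) (hLB : LB ≠ [])
    (D : ℕ → ℕ → ℕ → ℕ → ℕ → ℕ) (n : ℕ) :
    Fin (K + 2) → Fin (pW K g LB) × Fin (pW K g LB) :=
  edge (K + 2) (pW K g LB) (pW_pos hLB)
    ((storedW K h wm Z g NL Dl R T Sh Rh C μ B lo q κ ca LB D).getD n [])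

/-- The class of the blocks of machine `q`. -/
def actW (K Z g NL Dl μ B lo q : ℕ) (LB : List ℕ) (D : ℕ → ℕ → ℕ → ℕ → ℕ → ℕ) : ℕ → Prop :=
  actD (K + 2) (pW K g LB) (qA (2 * g) q * K) (min (qB (2 * g) q) (2 * g) * K) Dl
    (qO (2 * g) NL Dl q) (cdiv (K * Z) (2 ^ qL (2 * g) NL q))
    (cdiv (K * Z) (2 ^ (qL (2 * g) NL q + 1))) (nodeW K Z g μ B lo LB D)

instance (K Z g NL Dl μ B lo q : ℕ) (LB : List ℕ) (D : ℕ → ℕ → ℕ → ℕ → ℕ → ℕ) :
    DecidablePred (actW K Z g NL Dl μ B lo q LB D) := by unfold actW; infer_instance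

theorem nodeW_anti {K Z g μ B lo : ℕ} {LB : List ℕ} {D : ℕ → ℕ → ℕ → ℕ → ℕ → ℕ}
    (hD : ∀ κ m x u v, D (κ + 1) m x u v ≤ D κ m x u v) (κ m x y : ℕ) :
    nodeW K Z g μ B lo LB D (κ + 1) m x y ≤ nodeW K Z g μ B lo LB D κ m x y := by
  unfold nodeW
  split_ifs
  · exact hD _ _ _ _ _
  · exact le_rfl

theorem entryW_lt {K g : ℕ} {LB : List ℕ} (hLB : LB ≠ []) (q : ℕ) :
    qA (2 * g) q * K < pW K g LB := by
  refine lt_of_lt_of_le ?_ (le_pW hLB)
  calc qA (2 * g) q * K ≤ 2 * g * K := Nat.mul_le_mul_right _ (qA_le _)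
    _ = 2 * K * g := by ring
    _ < 2 * K * g + 1 := Nat.lt_succ_self _

theorem exitW_lt {K g : ℕ} {LB : List ℕ} (hLB : LB ≠ []) (q : ℕ) :
    min (qB (2 * g) q) (2 * g) * K < pW K g LB := by
  refine lt_of_lt_of_le ?_ (le_pW hLB)
  calc min (qB (2 * g) q) (2 * g) * K ≤ 2 * g * K := Nat.mul_le_mul_right _ (min_le_right _ _)
    _ = 2 * K * g := by ring
    _ < 2 * K * g + 1 := Nat.lt_succ_self _

theorem wtW_le (K g wm ca : ℕ) (LB : List ℕ) (m x y : ℕ) : wtW K g wm ca LB m x y ≤ 2 ^ wm := by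
  unfold wtW kxW
  split_ifs
  · exact Nat.pow_le_pow_right (by norm_num) (min_le_right _ _)
  · exact Nat.one_le_two_pow

theorem wtW_pos (K g wm ca : ℕ) (LB : List ℕ) (m x y : ℕ) : 1 ≤ wtW K g wm ca LB m x y := by
  unfold wtW
  split_ifs
  · exact Nat.one_le_two_pow
  · exact le_rfl

/-- **The stored paths are near-greedy** for the weighted costs of the instance with start
block `j1`. -/
theorem pkW_greedy {K h wm Z g NL Dl R T Sh Rh C μ B lo q κ ca j1 : ℕ} {LB : List ℕ}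
    (hLB : LB ≠ []) {D : ℕ → ℕ → ℕ → ℕ → ℕ → ℕ}
    (hD : ∀ κ m x u v, D (κ + 1) m x u v ≤ D κ m x u v) (hSh : 0 < Sh) (hRh : 0 < Rh)
    (hcap : 0 < cdiv (C * Z) (2 ^ qL (2 * g) NL q)) (hh : 0 < h) (hDl : 0 < Dl)
    (hj : j1 ≤ blk Dl (qO (2 * g) NL Dl q) κ)
    (hr : qR (2 * g) NL Dl R q = rk (actW K Z g NL Dl μ B lo q LB D) j1) :
    GreedyW (fun (i : Fin (K + 2)) (e : Fin (pW K g LB) × Fin (pW K g LB)) =>
        (wtW K g wm ca LB i e.1 e.2 : ℝ))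
      (fun i e => LstW (Dr (K + 2) (pW K g LB) (nodeW K Z g μ B lo LB D)) (wtW K g wm ca LB)
        (cdiv (C * Z) (2 ^ qL (2 * g) NL q) : ℕ) (qO (2 * g) NL Dl q) Dl h
          (actW K Z g NL Dl μ B lo q LB D) j1 κ i e +
        (wtW K g wm ca LB i e.1 e.2 : ℝ) * (rhW K g wm ca LB i e.1 e.2 : ℝ))
      (H763.paths (K + 2) (pW K g LB) (qA (2 * g) q * K) (min (qB (2 * g) q) (2 * g) * K)) T
      (2 * ((K + 2 : ℕ) * ((2 ^ wm : ℕ) * (1 / Rh + (T + pW K g LB * pW K g LB) * Rh / Sh))))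
      (pkW K h wm Z g NL Dl R T Sh Rh C μ B lo q κ ca LB hLB D) := by
  unfold pkW storedW
  rw [hr]
  have h1 := pathsW_greedyW (K := K + 2) (p := pW K g LB) (S := Sh) (R := Rh) (Am := 2 ^ wm)
    (cap := cdiv (C * Z) (2 ^ qL (2 * g) NL q)) (T := T) (a := qA (2 * g) q * K)
    (b := min (qB (2 * g) q) (2 * g) * K) (h := h) (Dl := Dl) (o := qO (2 * g) NL Dl q)
    (c0 := cdiv (K * Z) (2 ^ qL (2 * g) NL q)) (c1 := cdiv (K * Z) (2 ^ (qL (2 * g) NL q + 1)))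
    (t := κ) (j1 := j1) (D := nodeW K Z g μ B lo LB D) (w := wtW K g wm ca LB)
    (c := prcW Sh (cdiv (C * Z) (2 ^ qL (2 * g) NL q)) K g wm ca LB)
    (nodeW_anti hD) hSh hRh hcap (Nat.succ_pos _) (entryW_lt hLB q) (exitW_lt hLB q)
    (pW_pos hLB) hh hDl (fun i _ u _ v _ => wtW_le _ _ _ _ _ _ _ _) hj
  have hS' : (Sh : ℝ) ≠ 0 := by exact_mod_cast hSh.ne'
  have hc' : ((cdiv (C * Z) (2 ^ qL (2 * g) NL q) : ℕ) : ℝ) ≠ 0 := by exact_mod_cast hcap.ne'
  have hL : (fun (i : Fin (K + 2)) (e : Fin (pW K g LB) × Fin (pW K g LB)) =>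
      LstW (Dr (K + 2) (pW K g LB) (nodeW K Z g μ B lo LB D)) (wtW K g wm ca LB)
        (cdiv (C * Z) (2 ^ qL (2 * g) NL q) : ℕ) (qO (2 * g) NL Dl q) Dl h
          (actW K Z g NL Dl μ B lo q LB D) j1 κ i e +
        (prcW Sh (cdiv (C * Z) (2 ^ qL (2 * g) NL q)) K g wm ca LB i e.1 e.2 : ℝ) /
          (Sh * (cdiv (C * Z) (2 ^ qL (2 * g) NL q) : ℕ))) =
      fun i e => LstW (Dr (K + 2) (pW K g LB) (nodeW K Z g μ B lo LB D)) (wtW K g wm ca LB)
        (cdiv (C * Z) (2 ^ qL (2 * g) NL q) : ℕ) (qO (2 * g) NL Dl q) Dl h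
          (actW K Z g NL Dl μ B lo q LB D) j1 κ i e +
        (wtW K g wm ca LB i e.1 e.2 : ℝ) * (rhW K g wm ca LB i e.1 e.2 : ℝ) := by
    funext i e
    congr 1
    unfold prcW
    push_cast
    field_simp
  rw [← hL]
  exact h1

theorem nodesW_spec {K h wm Z g NL Dl R T Sh Rh C μ B lo q κ ca n : ℕ} {LB : List ℕ}
    (hLB : LB ≠ []) {D : ℕ → ℕ → ℕ → ℕ → ℕ → ℕ} (hn : n < T) : ∃ f : ℕ → ℕ,
      (storedW K h wm Z g NL Dl R T Sh Rh C μ B lo q κ ca LB D).getD n [] =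
        (List.range (K + 2 + 1)).map f ∧
      f 0 = qA (2 * g) q * K ∧ f (K + 2) = min (qB (2 * g) q) (2 * g) * K ∧
      ∀ i, i ≤ K + 2 → f i < pW K g LB := by
  unfold storedW pathsW
  set hist := histOf (K + 2) (pW K g LB) (nodeW K Z g μ B lo LB D) κ with hhist
  set ps := past (qA (2 * g) q * K) (min (qB (2 * g) q) (2 * g) * K) h Dl (qO (2 * g) NL Dl q)
    (cdiv (K * Z) (2 ^ qL (2 * g) NL q)) (cdiv (K * Z) (2 ^ (qL (2 * g) NL q + 1)))
    (qR (2 * g) NL Dl R q) hist κ with hps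
  set A := tabOf (K + 2) (pW K g LB) (wtW K g wm ca LB) with hA
  set Cc := tabOf (K + 2) (pW K g LB)
    (prcW Sh (cdiv (C * Z) (2 ^ qL (2 * g) NL q)) K g wm ca LB) with hCc
  set Li := linWT Sh (cdiv (C * Z) (2 ^ qL (2 * g) NL q)) h A Cc hist κ ps with hLi
  have h0 : Li = tabOf (K + 2) (pW K g LB)
      fun m u v => linW Sh (cdiv (C * Z) (2 ^ qL (2 * g) NL q)) h A Cc hist κ ps m u v := by
    rw [hLi, hhist]
    exact linWT_histOf (Nat.succ_pos _) _ _ _ _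
  have hlen : Li.length = K + 2 := by rw [h0]; exact tabOf_length _ _ _
  have hnn : nn Li = pW K g LB := by rw [h0]; exact nn_tabOf (Nat.succ_pos _) _
  have hL : Li ≠ [] := List.length_pos_iff.1 (by omega)
  obtain ⟨f, hf, f0, fm, fj, -⟩ := picksW_spec Sh (cdiv (C * Z) (2 ^ qL (2 * g) NL q)) Rh
    (2 ^ wm) (qA (2 * g) q * K) (min (qB (2 * g) q) (2 * g) * K) T Li A hL
    (by rw [hnn]; exact entryW_lt hLB q) (by rw [hnn]; exact exitW_lt hLB q) hn
  rw [hlen] at hf fm fj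
  rw [hnn] at fj
  exact ⟨f, hf, f0, fm, fj⟩

/-- **The lane is the stored path number `coin % T`**, piece by piece. -/
theorem laneWN_eq {K h wm Z g NL Dl R T Sh Rh C μ B lo q κ ca m : ℕ} {LB : List ℕ}
    (hLB : LB ≠ []) {coin : ℕ → ℕ} {D : ℕ → ℕ → ℕ → ℕ → ℕ → ℕ} (hT : 0 < T) (hm : m < K) :
    laneWN K h wm Z g NL Dl R T Sh Rh C μ B lo q κ ca LB coin D m =
      pieceW K Z g μ B lo LB
        (pkW K h wm Z g NL Dl R T Sh Rh C μ B lo q κ ca LB hLB D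
          (coin (qS (2 * g) NL Dl R q) % T) ⟨m + 1, by omega⟩).1
        (pkW K h wm Z g NL Dl R T Sh Rh C μ B lo q κ ca LB hLB D
          (coin (qS (2 * g) NL Dl R q) % T) ⟨m + 1, by omega⟩).2 := by
  have hn : coin (qS (2 * g) NL Dl R q) % T < T := Nat.mod_lt _ hT
  obtain ⟨f, hf, -, -, fj⟩ := nodesW_spec (K := K) (h := h) (wm := wm) (Z := Z) (g := g)
    (NL := NL) (Dl := Dl) (R := R) (Sh := Sh) (Rh := Rh) (C := C) (μ := μ) (B := B) (lo := lo)
    (q := q) (κ := κ) (ca := ca) hLB (D := D) hn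
  unfold laneWN pkW pieceWOf
  rw [hf]
  have h1 := fj (m + 1) (by omega)
  have h2 := fj (m + 2) (by omega)
  have e1 : ((List.range (K + 2 + 1)).map f).getD (m + 1) 0 = f (m + 1) :=
    getD_map_range' _ _ (by omega)
  have e2 : ((List.range (K + 2 + 1)).map f).getD (m + 2) 0 = f (m + 2) :=
    getD_map_range' _ _ (by omega)
  have e3 : ((edge (K + 2) (pW K g LB) (pW_pos hLB) ((List.range (K + 2 + 1)).map f)
      ⟨m + 1, by omega⟩).1 : ℕ) = f (m + 1) := by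
    show ((List.range (K + 2 + 1)).map f).getD (m + 1) 0 % (pW K g LB) = _
    rw [e1, Nat.mod_eq_of_lt h1]
  have e4 : ((edge (K + 2) (pW K g LB) (pW_pos hLB) ((List.range (K + 2 + 1)).map f)
      ⟨m + 1, by omega⟩).2 : ℕ) = f (m + 2) := by
    show ((List.range (K + 2 + 1)).map f).getD (m + 1 + 1) 0 % (pW K g LB) = _
    rw [show m + 1 + 1 = m + 2 from rfl, e2, Nat.mod_eq_of_lt h2]
  rw [e1, e2, e3, e4, Nat.min_eq_left (by omega), Nat.min_eq_left (by omega)]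

/-- The positions of the lanes are mesh points, at most `B`. -/
theorem machW_mesh (X : MPW) (LB : ℕ → ℕ → List ℕ) (m μ B w0 s q κ j a : ℕ)
    (D : ℕ → ℕ → ℕ → ℕ → ℕ → ℕ) (coin : ℕ → ℕ) (r : ℕ) :
    (μ ∣ ((machW X LB m μ B w0).lane s q κ j a D coin r).2.1 ∧
      ((machW X LB m μ B w0).lane s q κ j a D coin r).2.1 ≤ B) ∧
    (μ ∣ ((machW X LB m μ B w0).lane s q κ j a D coin r).2.2 ∧
      ((machW X LB m μ B w0).lane s q κ j a D coin r).2.2 ≤ B) :=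
  ⟨⟨dvd_posX _ _ _ _ _ _ _, posX_le _ _ _ _ _ _ _⟩,
    ⟨dvd_posX _ _ _ _ _ _ _, posX_le _ _ _ _ _ _ _⟩⟩

/-! ### Nodes -/

/-- The node with position number `x` and label number `l`. -/
def nodeOf (K g x l : ℕ) : ℕ := x + (2 * K * g + 1) * l

theorem nodeOf_lt {K g x l : ℕ} {LB : List ℕ} (hx : x ≤ 2 * K * g) (hl : l < LB.length) :
    nodeOf K g x l < pW K g LB := by
  unfold nodeOf pW
  calc x + (2 * K * g + 1) * l < (2 * K * g + 1) + (2 * K * g + 1) * l := by omega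
    _ = (2 * K * g + 1) * (l + 1) := by ring
    _ ≤ (2 * K * g + 1) * LB.length := Nat.mul_le_mul_left _ hl

theorem posX_nodeOf {K Z g μ B lo x l : ℕ} (hx : x ≤ 2 * K * g) :
    posX K Z g μ B lo (nodeOf K g x l) = posN μ B lo Z g x := by
  unfold posX nodeOf
  rw [Nat.add_mul_mod_self_left, Nat.mod_eq_of_lt (by omega)]

theorem labX_nodeOf {K g x l : ℕ} {LB : List ℕ} (hx : x ≤ 2 * K * g) (hl : l < LB.length) :
    labX K g LB (nodeOf K g x l) = LB[l] := by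
  unfold labX nodeOf
  rw [Nat.add_mul_div_left _ _ (by omega), Nat.div_eq_of_lt (by omega), zero_add,
    List.getD_eq_getElem _ _ hl]

/-- Every label of the list is the label of a node at every position. -/
theorem exists_node {K g x y : ℕ} {LB : List ℕ} (hx : x ≤ 2 * K * g) (hy : y ∈ LB) :
    ∃ n < pW K g LB, n % (2 * K * g + 1) = x ∧ labX K g LB n = y := by
  obtain ⟨l, hl, rfl⟩ := List.getElem_of_mem hy
  refine ⟨nodeOf K g x l, nodeOf_lt hx hl, ?_, labX_nodeOf hx hl⟩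
  unfold nodeOf
  rw [Nat.add_mul_mod_self_left, Nat.mod_eq_of_lt (by omega)]

end Vale.Agent.P315.H155
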