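import Vale.Agent.P315.H155.MachW
import Vale.Agent.P315.H519.RunsW

/-!
P315, milestone 2 (helper155): the stored paths of the concrete machine satisfy the hypothesis of
`H519.h3b_startW`; bound of the start cost `Phi0`.
-/

set_option autoImplicit false

namespace Vale.Agent.P315.H155

open Vale.Agent.P315.H763 Vale.Agent.P315.H220 Vale.Agent.P315.H801

/-- Real weights of the edges. -/
noncomputable def aR (K g wm ca : ℕ) (LB : List ℕ) (i : Fin (K + 2))
    (e : Fin (pW K g LB) × Fin (pW K g LB)) : ℝ := (wtW K g wm ca LB i e.1 e.2 : ℝ)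

/-- Real prices of the edges per unit of weight. -/
noncomputable def bR (K g wm ca : ℕ) (LB : List ℕ) (i : Fin (K + 2))
    (e : Fin (pW K g LB) × Fin (pW K g LB)) : ℝ := (rhW K g wm ca LB i e.1 e.2 : ℝ)

/-- Error of the greedy picks, per row. -/
noncomputable def etaW (wm T Sh Rh p : ℕ) : ℝ :=
  2 * ((2 ^ wm : ℕ) * (1 / Rh + (T + p * p) * Rh / Sh))

theorem etaW_nonneg (wm T Sh Rh p : ℕ) : 0 ≤ etaW wm T Sh Rh p := by
  unfold etaW; positivity

theorem aR_pos (K g wm ca : ℕ) (LB : List ℕ) (i : Fin (K + 2))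
    (e : Fin (pW K g LB) × Fin (pW K g LB)) : 0 < aR K g wm ca LB i e := by
  have := wtW_pos K g wm ca LB i e.1 e.2
  unfold aR
  exact_mod_cast this

theorem one_le_aR (K g wm ca : ℕ) (LB : List ℕ) (i : Fin (K + 2))
    (e : Fin (pW K g LB) × Fin (pW K g LB)) : 1 ≤ aR K g wm ca LB i e := by
  have := wtW_pos K g wm ca LB i e.1 e.2
  unfold aR
  exact_mod_cast this

theorem aR_le (K g wm ca : ℕ) (LB : List ℕ) (i : Fin (K + 2))
    (e : Fin (pW K g LB) × Fin (pW K g LB)) : aR K g wm ca LB i e ≤ ((2 ^ wm : ℕ) : ℝ) := by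
  have := wtW_le K g wm ca LB i e.1 e.2
  unfold aR
  exact_mod_cast this

/-- **The hypothesis `hpk` of `H519.h3b_startW`.** -/
theorem pkW_hpk {K h wm Z g NL Dl R T Sh Rh C μ B lo q κ ca j1 : ℕ} {LB : List ℕ}
    (hLB : LB ≠ []) {D : ℕ → ℕ → ℕ → ℕ → ℕ → ℕ}
    (hD : ∀ κ m x u v, D (κ + 1) m x u v ≤ D κ m x u v) (hSh : 0 < Sh) (hRh : 0 < Rh)
    (hcap : 0 < cdiv (C * Z) (2 ^ qL (2 * g) NL q)) (hh : 0 < h) (hDl : 0 < Dl)
    (hj : j1 ≤ blk Dl (qO (2 * g) NL Dl q) κ)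
    (hr : qR (2 * g) NL Dl R q = rk (actW K Z g NL Dl μ B lo q LB D) j1) :
    GreedyW (aR K g wm ca LB)
      (H519.LstW (Dr (K + 2) (pW K g LB) (nodeW K Z g μ B lo LB D))
        (cdiv (C * Z) (2 ^ qL (2 * g) NL q) : ℕ) (aR K g wm ca LB) (bR K g wm ca LB)
        (qO (2 * g) NL Dl q) Dl h (actW K Z g NL Dl μ B lo q LB D) j1 κ)
      (H763.paths (K + 2) (pW K g LB) (qA (2 * g) q * K) (min (qB (2 * g) q) (2 * g) * K)) T
      ((Fintype.card (Fin (K + 2)) : ℝ) * etaW wm T Sh Rh (pW K g LB))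
      (pkW K h wm Z g NL Dl R T Sh Rh C μ B lo q κ ca LB hLB D) := by
  have h1 := pkW_greedy (wm := wm) (ca := ca) (T := T) hLB hD hSh hRh hcap hh hDl hj hr
  have h2 : (2 * ((K + 2 : ℕ) * ((2 ^ wm : ℕ) * (1 / Rh +
      (T + pW K g LB * pW K g LB) * Rh / Sh))) : ℝ) =
      (Fintype.card (Fin (K + 2)) : ℝ) * etaW wm T Sh Rh (pW K g LB) := by
    unfold etaW
    rw [Fintype.card_fin]
    ring
  rw [h2] at h1
  exact h1

theorem ofNat_size_le (p : ℕ) : (p : ℝ) * p ≤ Real.exp (2 * (Nat.size p : ℝ)) := by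
  have h1 : (p : ℝ) ≤ 2 ^ Nat.size p := by exact_mod_cast (Nat.lt_size_self p).le
  have h2 : (2 : ℝ) ^ Nat.size p ≤ Real.exp (Nat.size p : ℝ) := by
    have h3 : (2 : ℝ) ≤ Real.exp 1 := by
      have := Real.add_one_le_exp (1 : ℝ)
      linarith
    calc (2 : ℝ) ^ Nat.size p ≤ (Real.exp 1) ^ Nat.size p :=
          pow_le_pow_left₀ (by norm_num) h3 _
      _ = Real.exp (Nat.size p : ℝ) := by rw [← Real.exp_nat_mul, mul_one]
  calc (p : ℝ) * p ≤ Real.exp (Nat.size p : ℝ) * Real.exp (Nat.size p : ℝ) :=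
        mul_le_mul (h1.trans h2) (h1.trans h2) (by positivity) (by positivity)
    _ = Real.exp (2 * (Nat.size p : ℝ)) := by rw [← Real.exp_add]; ring_nf

theorem two_pow_exp_le (k : ℕ) : (2 : ℝ) ^ k * Real.exp (-(k : ℝ)) ≤ 1 := by
  have h3 : (2 : ℝ) ≤ Real.exp 1 := by
    have := Real.add_one_le_exp (1 : ℝ)
    linarith
  have h4 : (2 : ℝ) ^ k ≤ Real.exp (k : ℝ) := by
    calc (2 : ℝ) ^ k ≤ (Real.exp 1) ^ k := pow_le_pow_left₀ (by norm_num) h3 _
      _ = Real.exp (k : ℝ) := by rw [← Real.exp_nat_mul, mul_one]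
  calc (2 : ℝ) ^ k * Real.exp (-(k : ℝ)) ≤ Real.exp (k : ℝ) * Real.exp (-(k : ℝ)) :=
        mul_le_mul_of_nonneg_right h4 (Real.exp_pos _).le
    _ = 1 := by rw [← Real.exp_add]; simp

theorem aR_exp_le (K g wm ca : ℕ) (LB : List ℕ) (i : Fin (K + 2))
    (e : Fin (pW K g LB) × Fin (pW K g LB)) :
    aR K g wm ca LB i e * Real.exp (-(bR K g wm ca LB i e)) ≤
      Real.exp (-(2 * (Nat.size (pW K g LB) : ℝ))) := by
  unfold aR bR wtW rhW
  split_ifs with h
  · have h1 := two_pow_exp_le (kxW wm ca (labX K g LB e.2))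
    push_cast
    rw [neg_add, Real.exp_add, ← mul_assoc]
    calc (2 : ℝ) ^ kxW wm ca (labX K g LB e.2) *
          Real.exp (-(kxW wm ca (labX K g LB e.2) : ℝ)) *
          Real.exp (-(2 * (Nat.size (pW K g LB) : ℝ)))
        ≤ 1 * Real.exp (-(2 * (Nat.size (pW K g LB) : ℝ))) :=
          mul_le_mul_of_nonneg_right h1 (Real.exp_pos _).le
      _ = _ := one_mul _
  · push_cast
    rw [zero_add, one_mul]

/-- **Start cost of a path**: at most its weighted price. -/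
theorem Phi0_le_sum (K g wm ca : ℕ) (LB : List ℕ)
    (P : Fin (K + 2) → Fin (pW K g LB) × Fin (pW K g LB)) :
    H519.Phi0 (aR K g wm ca LB) (bR K g wm ca LB) P ≤
      ∑ i, aR K g wm ca LB i (P i) * bR K g wm ca LB i (P i) := by
  unfold H519.Phi0
  have h1 : ∀ i : Fin (K + 2), ∑ e, aR K g wm ca LB i e * Real.exp (-(bR K g wm ca LB i e)) ≤
      1 := by
    intro i
    refine (Finset.sum_le_sum fun e _ => aR_exp_le K g wm ca LB i e).trans ?_
    rw [Finset.sum_const, Finset.card_univ, Fintype.card_prod, Fintype.card_fin, nsmul_eq_mul]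
    have h2 := ofNat_size_le (pW K g LB)
    push_cast
    calc ((pW K g LB : ℝ) * (pW K g LB : ℝ)) * Real.exp (-(2 * (Nat.size (pW K g LB) : ℝ)))
        ≤ Real.exp (2 * (Nat.size (pW K g LB) : ℝ)) *
          Real.exp (-(2 * (Nat.size (pW K g LB) : ℝ))) :=
          mul_le_mul_of_nonneg_right h2 (Real.exp_pos _).le
      _ = 1 := by rw [← Real.exp_add]; simp
  have h3 : ∑ i : Fin (K + 2), ∑ e, aR K g wm ca LB i e * Real.exp (-(bR K g wm ca LB i e)) ≤
      ∑ i, aR K g wm ca LB i (P i) :=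
    Finset.sum_le_sum fun i _ => (h1 i).trans (one_le_aR K g wm ca LB i (P i))
  have h4 : ∑ i, aR K g wm ca LB i (P i) * (bR K g wm ca LB i (P i) - 1) =
      ∑ i, aR K g wm ca LB i (P i) * bR K g wm ca LB i (P i) - ∑ i, aR K g wm ca LB i (P i) := by
    rw [← Finset.sum_sub_distrib]
    exact Finset.sum_congr rfl fun i _ => by ring
  rw [h4]
  linarith

theorem bR_le (K g wm ca : ℕ) (LB : List ℕ) (i : Fin (K + 2))
    (e : Fin (pW K g LB) × Fin (pW K g LB)) :
    bR K g wm ca LB i e ≤ (wm : ℝ) + 2 * (Nat.size (pW K g LB) : ℝ) := by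
  have h : rhW K g wm ca LB i e.1 e.2 ≤ wm + 2 * Nat.size (pW K g LB) := by
    unfold rhW kxW
    split_ifs
    · have : min (H95.cl (labX K g LB e.2) - ca) wm ≤ wm := min_le_right _ _
      exact Nat.add_le_add_right this _
    · omega
  unfold bR
  exact_mod_cast h

/-- Start cost of a path in terms of its weight. -/
theorem Phi0_le (K g wm ca : ℕ) (LB : List ℕ)
    (P : Fin (K + 2) → Fin (pW K g LB) × Fin (pW K g LB)) :
    H519.Phi0 (aR K g wm ca LB) (bR K g wm ca LB) P ≤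
      ((wm : ℝ) + 2 * (Nat.size (pW K g LB) : ℝ)) * ∑ i, aR K g wm ca LB i (P i) := by
  refine (Phi0_le_sum K g wm ca LB P).trans ?_
  rw [Finset.mul_sum]
  refine Finset.sum_le_sum fun i _ => ?_
  rw [mul_comm]
  exact mul_le_mul_of_nonneg_right (bR_le K g wm ca LB i (P i)) (aR_pos K g wm ca LB i (P i)).le

end Vale.Agent.P315.H155
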